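import Mathlib

/-!
# Hodge-Tate forms (blueprint (6.1)): definitions

`C` is a complete algebraically closed ultrametric field of characteristic zero with `‖p‖ < 1`,
`K` a function field of one variable over `C`.  No place library is needed for the statements.
-/

universe u v

namespace P025H587

variable {C : Type u} [NontriviallyNormedField C]
variable {K : Type v} [Field K] [Algebra C K]

/-- `K` is a function field of one variable over `C` -/
def IsFF (C : Type u) (K : Type v) [Field C] [Field K] [Algebra C K] : Prop :=
  ∃ t : K, Transcendental C t ∧ FiniteDimensional (IntermediateField.adjoin C {t}) K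

/-- the divisor of `f` is divisible by `q`, in terms of all valuation subrings of `K` over `C` -/
def DivBy (C : Type u) {K : Type v} [Field C] [Field K] [Algebra C K] (q : ℕ) (f : K) : Prop :=
  ∀ O : ValuationSubring K, (∀ c : C, algebraMap C K c ∈ O) →
    ∃ g : K, O.valuation f = O.valuation g ^ q

/-- compatible systems `c = (f_m)`: `div f_m = 0 mod p^m`, `f_{m+1} = f_m h_m^{p^m}` -/
structure IsSys (C : Type u) {K : Type v} [Field C] [Field K] [Algebra C K] (p : ℕ)
    (f : ℕ → K) : Prop where
  ne : ∀ m, f m ≠ 0
  div : ∀ m, DivBy C (p ^ m) (f m)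
  succ : ∀ m, ∃ h : K, f (m + 1) = f m * h ^ p ^ m

/-- multiplicative ultrametric norms of `K` extending the norm of `C` -/
structure IsNm (C : Type u) [NontriviallyNormedField C] {K : Type v} [Field K] [Algebra C K]
    (w : AbsoluteValue K ℝ) : Prop where
  na : IsNonarchimedean w
  const : ∀ c : C, w (algebraMap C K c) = ‖c‖

/-- `θ` is the limit of the logarithmic derivatives of the system `f`, for all norms, at speed
`‖p‖ ^ m`. -/
def IsTheta (p : ℕ) (D : Derivation C K K) (f : ℕ → K) (θ : K) : Prop :=
  ∀ w : AbsoluteValue K ℝ, IsNm C w → ∃ A : ℝ, ∀ m, w (D (f m) / f m - θ) ≤ A * ‖(p : C)‖ ^ m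

end P025H587
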