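import Vale.Agent.P025.R2.H587.RatAp
import Vale.Agent.P025.R2.H587.HTDefs
import Vale.Agent.P025.R2.H373.Defs

/-!
# Convergence of the traces of logarithmic derivatives

Helper file for the Hodge-Tate forms (blueprint (6.1)).
-/

universe u v w

namespace P025H587

open Polynomial

section vw

variable {F : Type u} [Field F]

/-- the valuation subring of an ultrametric absolute value -/
def Vw (w : AbsoluteValue F ℝ) (h : IsNonarchimedean w) : ValuationSubring F where
  carrier := {f | w f ≤ 1}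
  mul_mem' := by
    intro x y hx hy
    rw [Set.mem_ofPred_eq] at hx hy ⊢
    rw [w.map_mul]
    exact mul_le_one₀ hx (w.nonneg y) hy
  one_mem' := by
    rw [Set.mem_ofPred_eq, w.map_one]
  add_mem' := by
    intro x y hx hy
    exact (h x y).trans (max_le hx hy)
  zero_mem' := by
    rw [Set.mem_ofPred_eq, w.map_zero]
    exact zero_le_one
  neg_mem' := by
    intro x hx
    rw [Set.mem_ofPred_eq] at hx ⊢
    rwa [w.map_neg]
  mem_or_inv_mem' := by
    intro x
    rw [Set.mem_ofPred_eq, Set.mem_ofPred_eq, map_inv₀]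
    rcases le_total (w x) 1 with h | h
    · exact Or.inl h
    · exact Or.inr (inv_le_one_of_one_le₀ h)

theorem mem_Vw {w : AbsoluteValue F ℝ} {h : IsNonarchimedean w} {x : F} :
    x ∈ Vw w h ↔ w x ≤ 1 := Iff.rfl

theorem na_sum_le {w : AbsoluteValue F ℝ} (hna : IsNonarchimedean w) {ι : Type*} (s : Finset ι)
    {f : ι → F} {B : ℝ} (hB : 0 ≤ B) (h : ∀ i ∈ s, w (f i) ≤ B) : w (∑ i ∈ s, f i) ≤ B := by
  classical
  induction s using Finset.induction_on with
  | empty => simpa using hB
  | insert a s ha ih =>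
    rw [Finset.sum_insert ha]
    exact (hna _ _).trans (max_le (h a (Finset.mem_insert_self a s))
      (ih fun i hi => h i (Finset.mem_insert_of_mem hi)))

end vw

section basis

variable {C : Type u} {K : Type v} [Field C] [Field K] [Algebra C K] [Algebra (RatFunc C) K]
  [IsScalarTower C (RatFunc C) K]

/-- integrality over `C[t]` -/
def IntT (C : Type u) {K : Type v} [Field C] [Field K] [Algebra (RatFunc C) K] (b : K) : Prop :=
  ∃ Q : C[X][X], Q.Monic ∧ Q.eval₂ (phi C K) b = 0

theorem exists_IntT [Algebra.IsAlgebraic (RatFunc C) K] (x : K) :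
    ∃ P : C[X], P ≠ 0 ∧ IntT C (algebraMap (RatFunc C) K (pl P) * x) := by
  let _ : Algebra C[X] K := (phi C K).toAlgebra
  have : IsScalarTower C[X] (RatFunc C) K := IsScalarTower.of_algebraMap_eq' rfl
  have hx : IsIntegral (RatFunc C) x := Algebra.IsIntegral.isIntegral x
  obtain ⟨⟨P, hP⟩, Q, hQ, hQx⟩ := hx.exists_multiple_integral_of_isLocalization
    (nonZeroDivisors C[X]) x
  refine ⟨P, nonZeroDivisors.ne_zero hP, Q, hQ, ?_⟩
  have h1 : algebraMap (RatFunc C) K (pl P) * x = (⟨P, hP⟩ : nonZeroDivisors C[X]) • x := by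
    rw [Submonoid.smul_def, Algebra.smul_def]
    rfl
  rw [h1]
  exact hQx

/-- dual systems -/
theorem exists_dual [FiniteDimensional (RatFunc C) K] [CharZero C] :
    ∃ (n : ℕ) (b e : Fin n → K), (∀ j, IntT C (b j)) ∧ ∀ x : K,
      x = ∑ j, algebraMap (RatFunc C) K (Algebra.trace (RatFunc C) K (b j * x)) * e j := by
  have : CharZero (RatFunc C) := charZero_of_injective_algebraMap
    (algebraMap C (RatFunc C)).injective
  set b₀ := Module.finBasis (RatFunc C) K with hb
  choose P hP hPi using fun j => exists_IntT (C := C) (b₀ j)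
  refine ⟨_, fun j => algebraMap (RatFunc C) K (pl (P j)) * b₀ j,
    fun j => (algebraMap (RatFunc C) K (pl (P j)))⁻¹ * b₀.traceDual j, hPi, fun x => ?_⟩
  conv_lhs => rw [← b₀.traceDual.sum_repr x]
  refine Finset.sum_congr rfl fun j _ => ?_
  rw [Module.Basis.traceDual_repr_apply, Algebra.traceForm_apply, Algebra.smul_def]
  have h1 : algebraMap (RatFunc C) K (pl (P j)) ≠ 0 := by
    simpa using pl_ne (hP j)
  have h2 : algebraMap (RatFunc C) K (pl (P j)) * b₀ j * x = pl (P j) • (x * b₀ j) := by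
    rw [Algebra.smul_def]
    ring
  rw [h2, map_smul, smul_eq_mul, (algebraMap (RatFunc C) K).map_mul]
  field_simp

theorem IntT.VInt {b : K} (hb : IntT C b) (a : C) : VInt (Va a) b := by
  intro O hO
  obtain ⟨Q, hQ, hQb⟩ := hb
  have hmem : ∀ R : C[X], phi C K R ∈ O := by
    intro R
    exact hO.mem.2 (pl_mem_Va a R)
  let ψ : C[X] →+* O.toSubring := (phi C K).codRestrict O.toSubring hmem
  have h1 : IsIntegral O.toSubring b := by
    refine ⟨Q.map ψ, hQ.map ψ, ?_⟩
    rw [eval₂_map]
    exact hQb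
  have h2 : IsIntegrallyClosed O.toSubring := inferInstance
  have : IsFractionRing O.toSubring K := inferInstanceAs (IsFractionRing O K)
  obtain ⟨y, hy⟩ := (isIntegrallyClosed_iff K).1 h2 h1
  rw [← hy]
  exact y.2

end basis

section bounds

variable {C : Type u} {K : Type v} [NormedField C] [IsUltrametricDist C] [IsAlgClosed C]
  [CharZero C] [Field K] [Algebra C K] [Algebra (RatFunc C) K]
  [IsScalarTower C (RatFunc C) K] [FiniteDimensional (RatFunc C) K]

omit [IsUltrametricDist C] [IsAlgClosed C] [CharZero C] in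
theorem exists_coeff_bound (Q : C[X][X]) : ∃ (A : ℝ) (d : ℕ), 1 ≤ A ∧
    ∀ (a : C) (i : ℕ), ‖(Q.coeff i).eval a‖ ≤ A * max 1 ‖a‖ ^ d := by
  choose A hA hAd using fun i => norm_eval_le (Q.coeff i)
  set s := Finset.range (Q.natDegree + 1) with hs
  refine ⟨1 + ∑ i ∈ s, A i, s.sup fun i => (Q.coeff i).natDegree, ?_, ?_⟩
  · have : 0 ≤ ∑ i ∈ s, A i := Finset.sum_nonneg fun i _ => hA i
    linarith
  · intro a i
    by_cases hi : i ∈ s
    · refine (hAd i _ (Finset.le_sup (f := fun i => (Q.coeff i).natDegree) hi) a).trans ?_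
      have h1 : A i ≤ ∑ i ∈ s, A i := Finset.single_le_sum (fun i _ => hA i) hi
      gcongr
      linarith
    · have h1 : Q.coeff i = 0 := by
        apply coeff_eq_zero_of_natDegree_lt
        rw [hs, Finset.mem_range] at hi
        omega
      rw [h1, eval_zero, norm_zero]
      have : 0 ≤ ∑ i ∈ s, A i := Finset.sum_nonneg fun i _ => hA i
      positivity

omit [FiniteDimensional (RatFunc C) K] [IsUltrametricDist C] [IsAlgClosed C] [CharZero C] in
theorem DivBy.ov {q : ℕ} {f : K} (h : DivBy C q f) {V : ValuationSubring (RatFunc C)}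
    (hV : ∀ c : C, algebraMap C (RatFunc C) c ∈ V) (O : ValuationSubring K) (hO : Ov V O) :
    ∃ g, O.valuation f = O.valuation g ^ q := by
  apply h O
  intro c
  rw [IsScalarTower.algebraMap_apply C (RatFunc C) K]
  exact hO.mem.2 (hV c)

/-- the poles of the traces of logarithmic derivatives: simple, small residues -/
theorem exists_tr_bound {D : Derivation C K K} (hD : IsDt D) {b : K} (hb : IntT C b) :
    ∃ (A : ℝ) (d n : ℕ), 0 ≤ A ∧ ∀ (q : ℕ) (f : K), q ≠ 0 → f ≠ 0 → DivBy C q f →
      (∀ a : C, ∃ c : C, ‖c‖ ≤ A * ‖(q : C)‖ * max 1 ‖a‖ ^ d ∧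
        lin a * Algebra.trace (RatFunc C) K (b * (D f / f)) - algebraMap C (RatFunc C) c ∈
          (Va a).nonunits) ∧
      (RatFunc.X⁻¹) ^ n * Algebra.trace (RatFunc C) K (b * (D f / f)) ∈ Vinf C := by
  have : CharZero (RatFunc C) := charZero_of_injective_algebraMap
    (algebraMap C (RatFunc C)).injective
  have hbV := hb.VInt
  obtain ⟨Q, hQ, hQb⟩ := hb
  obtain ⟨A, d, hA, hAd⟩ := exists_coeff_bound Q
  -- the order at infinity
  obtain ⟨v, hv, hv0, hvb⟩ := exists_mul_VInt (Vinf C) b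
  obtain ⟨k, u, hu, hu', hvu⟩ := Vinf_dec v hv0
  set M : ℕ := (Module.finrank (RatFunc C) K).factorial with hM
  have hM0 : (M : C) ≠ 0 := by
    rw [Nat.cast_ne_zero]
    exact Nat.factorial_ne_zero _
  refine ⟨A / ‖(M : C)‖, d, (k - 1).toNat, by positivity, ?_⟩
  intro q f hq hf hqf
  constructor
  · intro a
    have hB1 : 1 ≤ A * max 1 ‖a‖ ^ d := by
      have h1 : 1 ≤ max 1 ‖a‖ ^ d := one_le_pow₀ (le_max_left _ _)
      nlinarith
    obtain ⟨c, hc, hc'⟩ := (loc_Va hD a).trace_res hq (hbV a) hf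
      (hqf.ov (Va_const a)) (B := A * max 1 ‖a‖ ^ d) (by linarith)
      (fun O hO β hβ => norm_residue_le hQ hQb hO hβ hB1 (hAd a))
    refine ⟨c, ?_, ?_⟩
    · refine hc.trans (le_of_eq ?_)
      rw [← hM]
      ring
    · have h1 : b * ((algebraMap (RatFunc C) K (lin a) • D) f / f) = lin a • (b * (D f / f)) := by
        rw [Derivation.smul_apply, smul_eq_mul, Algebra.smul_def]
        ring
      rw [h1, map_smul, smul_eq_mul] at hc'
      exact hc'
  · have hX : (RatFunc.X : RatFunc C) ≠ 0 := RatFunc.X_ne_zero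
    have h1 := trace_mem (hvb.mul ((loc_Vinf hD).ld_VInt hf))
    have h2 : v • b * ((-algebraMap (RatFunc C) K RatFunc.X • D) f / f) =
        (-(v * RatFunc.X)) • (b * (D f / f)) := by
      rw [Derivation.smul_apply, smul_eq_mul, Algebra.smul_def, Algebra.smul_def, map_neg, map_mul]
      ring
    rw [h2, map_smul, smul_eq_mul] at h1
    set g := Algebra.trace (RatFunc C) K (b * (D f / f)) with hg
    have hu0 : u ≠ 0 := by
      rintro rfl
      rw [mul_zero] at hvu
      exact hv0 hvu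
    have h3 : (RatFunc.X⁻¹) ^ (k - 1).toNat * g =
        (RatFunc.X⁻¹) ^ ((k - 1).toNat - (k - 1)).toNat * (u⁻¹ * (-(-(v * RatFunc.X) * g))) := by
      have h4 : ((RatFunc.X⁻¹ : RatFunc C)) ^ (k - 1).toNat =
          (RatFunc.X⁻¹) ^ ((k - 1).toNat - (k - 1)).toNat * (RatFunc.X⁻¹) ^ (k - 1) := by
        rw [← zpow_natCast, ← zpow_natCast, ← zpow_add₀ (inv_ne_zero hX)]
        congr 1
        omega
      have h5 : (RatFunc.X⁻¹ : RatFunc C) ^ (k - 1) = RatFunc.X⁻¹ ^ k * RatFunc.X := by
        rw [zpow_sub_one₀ (inv_ne_zero hX), inv_inv]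
      rw [h4, h5, hvu]
      field_simp
    rw [h3]
    refine mul_mem (pow_mem ?_ _) (mul_mem hu' (neg_mem h1))
    rw [mem_Vinf (inv_ne_zero hX), RatFunc.intDegree_inv, RatFunc.intDegree_X]
    norm_num

theorem one_le_gauss_lin {C : Type u} [NormedField C] [IsUltrametricDist C] (b : C) :
    1 ≤ P025H373.gauss C (lin b) := by
  rw [lin, P025H373.gauss_poly]
  refine le_trans ?_ (P025H373.norm_coeff_le _ 1)
  simp

/-- the traces of the logarithmic derivatives are bounded for the Gauss norm -/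
theorem exists_gauss_bound {D : Derivation C K K} (hD : IsDt D) (b : K) :
    ∃ A : ℝ, 0 ≤ A ∧ ∀ h : K, h ≠ 0 →
      P025H373.gauss C (Algebra.trace (RatFunc C) K (b * (D h / h))) ≤ A := by
  have : CharZero (RatFunc C) := charZero_of_injective_algebraMap
    (algebraMap C (RatFunc C)).injective
  set V := Vw (P025H373.gauss C) P025H373.gauss_na with hV
  obtain ⟨π, hπ, hπ0, hπl⟩ := exists_ld V D (fun a ha => by
    refine ld_of_lin V D (fun c => ?_) a ha
    refine ⟨(lin c)⁻¹, ?_, ?_⟩
    · rw [hV, mem_Vw, map_inv₀]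
      exact inv_le_one_of_one_le₀ (one_le_gauss_lin c)
    · rw [hD.lin, inv_mul_cancel₀ (lin_ne c), map_one])
  obtain ⟨v, hv, hv0, hvb⟩ := exists_mul_VInt V b
  have hpos : 0 < P025H373.gauss C (v * π) :=
    (P025H373.gauss C).pos (mul_ne_zero hv0 hπ0)
  refine ⟨(P025H373.gauss C (v * π))⁻¹, by positivity, ?_⟩
  intro h hh
  have h1 := trace_mem (hvb.mul (hπl h hh))
  have h2 : v • b * π • (D h / h) = (v * π) • (b * (D h / h)) := by
    simp only [Algebra.smul_def, map_mul]
    ring
  rw [h2, map_smul, smul_eq_mul, hV, mem_Vw, map_mul] at h1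
  rw [← one_div, le_div_iff₀ hpos, mul_comm]
  exact h1

end bounds

end P025H587
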