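import Vale.Agent.P025.R2.H587.LogDer

/-!
# Logarithmic derivatives at a place: regular, with rational residue

Helper file for the Hodge-Tate forms (blueprint (6.1)).
-/

universe u v w

namespace P025H587

open Polynomial

variable {C : Type w} {F : Type u} {K : Type v} [Field C] [Field F] [Field K] [Algebra C F]
  [Algebra C K] [Algebra F K] [IsScalarTower C F K]

/-- `V` is a discrete valuation subring of `F` with residue field `C` and uniformizer `x`, and
`δ` is the derivation `x d/dx`. -/
structure Loc (V : ValuationSubring F) (x : F) (δ : Derivation C K K) : Prop where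
  const : ∀ c : C, algebraMap C F c ∈ V
  res : ∀ v ∈ V, ∃ c : C, v - algebraMap C F c ∈ V.nonunits
  ne : x ≠ 0
  non : x ∈ V.nonunits
  dec : ∀ f : F, f ≠ 0 → ∃ n : ℤ, ∃ u ∈ V, u⁻¹ ∈ V ∧ f = x ^ n * u
  ld : ∀ a : F, a ≠ 0 → ∃ v ∈ V, δ (algebraMap F K a) = algebraMap F K (v * a)
  der : δ (algebraMap F K x) = algebraMap F K x

theorem val_eq_one {O : ValuationSubring K} {u : K} (h0 : u ≠ 0) (h : u ∈ O) (h' : u⁻¹ ∈ O) :
    O.valuation u = 1 := by
  apply le_antisymm ((O.valuation_le_one_iff u).2 h)
  rw [← O.valuation_le_one_iff, map_inv₀] at h'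
  have h1 : 0 < O.valuation u := by
    rw [zero_lt_iff]
    simpa using h0
  exact (inv_le_one₀ h1).1 h'

theorem Ov.non {V : ValuationSubring F} {O : ValuationSubring K} (h : Ov V O) {a : F} :
    algebraMap F K a ∈ O.nonunits ↔ a ∈ V.nonunits := by
  rw [ValuationSubring.mem_nonunits_iff_or, ValuationSubring.mem_nonunits_iff_or, ← map_inv₀,
    h.mem, map_eq_zero]

namespace Loc

variable {V : ValuationSubring F} {x : F} {δ : Derivation C K K}

theorem const_mem (hL : Loc V x δ) {O : ValuationSubring K} (hO : Ov V O) (c : C) :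
    algebraMap C K c ∈ O := by
  rw [IsScalarTower.algebraMap_apply C F K]
  exact hO.mem.2 (hL.const c)

theorem const_val (hL : Loc V x δ) {O : ValuationSubring K} (hO : Ov V O) {c : C} (hc : c ≠ 0) :
    O.valuation (algebraMap C K c) = 1 := by
  refine val_eq_one (by simpa using hc) (hL.const_mem hO c) ?_
  rw [← map_inv₀]
  exact hL.const_mem hO _

omit [IsScalarTower C F K] in
theorem valx_lt (hL : Loc V x δ) {O : ValuationSubring K} (hO : Ov V O) :
    O.valuation (algebraMap F K x) < 1 := by
  have := hO.non.2 hL.non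
  rwa [ValuationSubring.mem_nonunits_iff] at this

omit [IsScalarTower C F K] in
theorem valx_pos (hL : Loc V x δ) (O : ValuationSubring K) :
    0 < O.valuation (algebraMap F K x) := by
  rw [zero_lt_iff]
  simpa using hL.ne

/-- the residue field is `C` -/
theorem exists_res [IsAlgClosed C] [Algebra.IsAlgebraic F K] (hL : Loc V x δ)
    {O : ValuationSubring K} (hO : Ov V O) {z : K} (hz : z ∈ O) :
    ∃ c : C, z - algebraMap C K c ∈ O.nonunits := by
  obtain ⟨P, hPz, hP, k, hk⟩ := exists_prim V z
  choose c hc using fun i => hL.res (P.coeff i) (hP i)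
  set Q : C[X] := ∑ i ∈ Finset.range (P.natDegree + 1), monomial i (c i) with hQ
  have hkd : k ∈ Finset.range (P.natDegree + 1) := by
    rw [Finset.mem_range, Nat.lt_succ_iff]
    apply le_natDegree_of_ne_zero
    rw [hk]
    exact one_ne_zero
  have hQk : Q.coeff k = c k := by
    rw [hQ, finsetSum_coeff, Finset.sum_eq_single k]
    · simp
    · intro b _ hb
      rw [coeff_monomial, if_neg hb]
    · intro h
      exact absurd hkd h
  have hck : c k ≠ 0 := by
    intro h
    have := hc k
    rw [hk, h, map_zero, sub_zero, ValuationSubring.mem_nonunits_iff, map_one] at this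
    exact lt_irrefl _ this
  have hQ0 : Q ≠ 0 := by
    intro h
    rw [h, coeff_zero] at hQk
    exact hck hQk.symm
  have hQz : aeval z Q ∈ O.nonunits := by
    have h1 : aeval z Q = - ∑ i ∈ Finset.range (P.natDegree + 1),
        (algebraMap F K (P.coeff i - algebraMap C F (c i))) * z ^ i := by
      rw [aeval_eq_sum_range] at hPz
      have h2 : ∑ i ∈ Finset.range (P.natDegree + 1),
          (algebraMap F K (P.coeff i - algebraMap C F (c i))) * z ^ i =
          (∑ i ∈ Finset.range (P.natDegree + 1), P.coeff i • z ^ i) - aeval z Q := by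
        rw [hQ, map_sum, ← Finset.sum_sub_distrib]
        refine Finset.sum_congr rfl fun i _ => ?_
        rw [aeval_monomial, map_sub, sub_mul, Algebra.smul_def,
          ← IsScalarTower.algebraMap_apply C F K]
      rw [h2, hPz]
      ring
    rw [h1]
    refine neg_mem (sum_mem fun i _ => ?_)
    have h3 := hO.non.2 (hc i)
    rw [ValuationSubring.mem_nonunits_iff] at h3 ⊢
    rw [map_mul]
    refine mul_lt_one_of_lt_of_le h3 ((O.valuation_le_one_iff _).2 (pow_mem hz i))
  by_contra hcon
  push Not at hcon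
  have hval : ∀ a : C, O.valuation (z - algebraMap C K a) = 1 := by
    intro a
    have h1 := hcon a
    rw [ValuationSubring.mem_nonunits_iff, not_lt] at h1
    refine le_antisymm ((O.valuation_le_one_iff _).2 (sub_mem hz (hL.const_mem hO a))) h1
  have hsp := (IsAlgClosed.splits Q).eq_prod_roots
  have h4 : O.valuation (aeval z Q) = 1 := by
    rw [hsp, map_mul, aeval_C, map_mul, hL.const_val hO (leadingCoeff_ne_zero.2 hQ0), one_mul,
      map_multiset_prod, map_multiset_prod, Multiset.map_map, Multiset.map_map]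
    apply Multiset.prod_eq_one
    intro y hy
    rw [Multiset.mem_map] at hy
    obtain ⟨a, _, rfl⟩ := hy
    simpa using hval a
  rw [ValuationSubring.mem_nonunits_iff, h4] at hQz
  exact lt_irrefl _ hQz

omit [IsScalarTower C F K] in
/-- the value group -/
theorem exists_nu [FiniteDimensional F K] (hL : Loc V x δ) {O : ValuationSubring K}
    (hO : Ov V O) {z : K} (hz : z ≠ 0) : ∃ n : ℤ,
      O.valuation z ^ (Module.finrank F K).factorial = O.valuation (algebraMap F K x) ^ n := by
  obtain ⟨a, ha0, ha⟩ := exists_pow_eq F O hz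
  obtain ⟨n, u, hu, hu', hau⟩ := hL.dec a ha0
  refine ⟨n, ?_⟩
  have hu0 : u ≠ 0 := by
    rintro rfl
    rw [mul_zero] at hau
    exact ha0 hau
  have h1 : O.valuation (algebraMap F K u) = 1 := by
    refine val_eq_one (by simpa using hu0) (hO.mem.2 hu) ?_
    rw [← map_inv₀]
    exact hO.mem.2 hu'
  rw [← map_pow, ha, hau, map_mul, map_mul, h1, mul_one, map_zpow₀, map_zpow₀]

omit [IsScalarTower C F K] in
/-- `z ^ M = x ^ k * u` -/
theorem exists_unit [FiniteDimensional F K] (hL : Loc V x δ) {O : ValuationSubring K}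
    (hO : Ov V O) {z : K} (hz : z ≠ 0) : ∃ (k : ℤ) (u : K), u ≠ 0 ∧ O.valuation u = 1 ∧
      z ^ (Module.finrank F K).factorial = algebraMap F K x ^ k * u ∧
      ((Module.finrank F K).factorial : K) * (δ z / z) = k + δ u / u := by
  obtain ⟨n, hn⟩ := hL.exists_nu hO hz
  have hx0 : algebraMap F K x ≠ 0 := by simpa using hL.ne
  have hxn : algebraMap F K x ^ n ≠ 0 := zpow_ne_zero n hx0
  set M := (Module.finrank F K).factorial with hM
  have hu0 : z ^ M / algebraMap F K x ^ n ≠ 0 := div_ne_zero (pow_ne_zero _ hz) hxn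
  have h1 : z ^ M = algebraMap F K x ^ n * (z ^ M / algebraMap F K x ^ n) := by
    rw [mul_div_cancel₀ _ hxn]
  refine ⟨n, z ^ M / algebraMap F K x ^ n, hu0, ?_, h1, ?_⟩
  · rw [map_div₀, map_pow, hn, map_zpow₀, div_self]
    exact zpow_ne_zero n (hL.valx_pos O).ne'
  · have h2 := ld_mul δ hxn hu0
    rw [← h1, ld_pow δ hz, ld_zpow δ hx0, hL.der, div_self hx0, mul_one] at h2
    exact h2

/-- the logarithmic derivative is integral -/
theorem ld_VInt [IsAlgClosed C] [CharZero C] [CharZero F] [FiniteDimensional F K]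
    (hL : Loc V x δ) {z : K} (hz : z ≠ 0) : VInt V (δ z / z) := by
  intro O hO
  by_contra hcon
  obtain ⟨π, hπ, hπ0, hbd⟩ := exists_ld V δ hL.ld
  set M := (Module.finrank F K).factorial with hM
  have hM0 : M ≠ 0 := Nat.factorial_ne_zero _
  set X := O.valuation (algebraMap F K x) with hX
  have hX0 : 0 < X := hL.valx_pos O
  have hX1 : X < 1 := hL.valx_lt hO
  -- the exponent of `π`
  obtain ⟨b, u, hu, hu', hπu⟩ := hL.dec π hπ0
  have hvπ : O.valuation (algebraMap F K π) = X ^ b := by
    have hu0 : u ≠ 0 := by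
      rintro rfl
      rw [mul_zero] at hπu
      exact hπ0 hπu
    have h1 : O.valuation (algebraMap F K u) = 1 := by
      refine val_eq_one (by simpa using hu0) (hO.mem.2 hu) ?_
      rw [← map_inv₀]
      exact hO.mem.2 hu'
    rw [hπu, map_mul, map_mul, h1, mul_one, map_zpow₀, map_zpow₀]
  let S : ℤ → Prop := fun n => ∃ y : K, y ≠ 0 ∧ δ y ≠ 0 ∧ O.valuation (δ y / y) ^ M = X ^ n
  have hS : ∃ n, S n := by
    have hd : δ z ≠ 0 := by
      intro h
      rw [h, zero_div] at hcon
      exact hcon O.zero_mem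
    obtain ⟨n, hn⟩ := hL.exists_nu hO (div_ne_zero hd hz)
    exact ⟨n, z, hz, hd, hn⟩
  have hbdd : ∀ n, S n → -(b * M) ≤ n := by
    rintro n ⟨y, hy, hdy, hn⟩
    have h1 := hbd y hy O hO
    rw [← O.valuation_le_one_iff, Algebra.smul_def, map_mul, hvπ] at h1
    have h2 : (X ^ b * O.valuation (δ y / y)) ^ M ≤ 1 := pow_le_one₀ zero_le h1
    rw [mul_pow, hn, ← zpow_natCast, ← zpow_mul, ← zpow_add₀ hX0.ne'] at h2
    by_contra hlt
    push Not at hlt
    have h3 : (1 : O.ValueGroup) < X ^ (b * (M : ℤ) + n) := by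
      apply one_lt_zpow_of_neg₀ hX0 hX1
      omega
    exact absurd h2 (not_le.2 h3)
  obtain ⟨n, ⟨y, hy, hdy, hn⟩, hmin⟩ := Int.exists_least_of_bdd ⟨_, hbdd⟩ hS
  -- `n < 0`
  have hn0 : n < 0 := by
    have hd : δ z ≠ 0 := by
      intro h
      rw [h, zero_div] at hcon
      exact hcon O.zero_mem
    obtain ⟨m, hm⟩ := hL.exists_nu hO (div_ne_zero hd hz)
    have h1 : n ≤ m := hmin m ⟨z, hz, hd, hm⟩
    refine lt_of_le_of_lt h1 ?_
    by_contra hm0
    push Not at hm0
    have h2 : O.valuation (δ z / z) ^ M ≤ 1 := by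
      rw [hm]
      exact zpow_le_one₀ hX0 hX1.le hm0
    have h3 : O.valuation (δ z / z) ≤ 1 := (pow_le_one_iff hM0).1 h2
    exact hcon ((O.valuation_le_one_iff _).1 h3)
  have hbig : 1 < O.valuation (δ y / y) := by
    by_contra hle
    push Not at hle
    have h2 : O.valuation (δ y / y) ^ M ≤ 1 := pow_le_one₀ zero_le hle
    rw [hn] at h2
    have h3 : (1 : O.ValueGroup) < X ^ n := one_lt_zpow_of_neg₀ hX0 hX1 hn0
    exact absurd h2 (not_le.2 h3)
  obtain ⟨k, u', hu0, hvu, -, hldu⟩ := hL.exists_unit hO hy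
  have hu'O : u' ∈ O := (O.valuation_le_one_iff u').1 hvu.le
  obtain ⟨c, hc⟩ := hL.exists_res hO hu'O
  have hδu : δ u' = δ (u' - algebraMap C K c) := by
    rw [map_sub, Derivation.map_algebraMap, sub_zero]
  have hsmall : O.valuation (δ u' / u') < O.valuation (δ y / y) := by
    by_cases h0 : δ u' = 0
    · rw [h0, zero_div, map_zero]
      exact lt_trans zero_lt_one hbig
    · set w := u' - algebraMap C K c with hw
      have hw0 : w ≠ 0 := by
        intro h
        rw [hδu, h, map_zero] at h0
        exact h0 rfl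
      have hdw : δ w ≠ 0 := by rwa [← hδu]
      obtain ⟨m, hm⟩ := hL.exists_nu hO (div_ne_zero hdw hw0)
      have h1 : n ≤ m := hmin m ⟨w, hw0, hdw, hm⟩
      have h2 : O.valuation (δ w / w) ≤ O.valuation (δ y / y) := by
        have h3 : O.valuation (δ w / w) ^ M ≤ O.valuation (δ y / y) ^ M := by
          rw [hn, hm]
          exact zpow_le_zpow_right_of_le_one₀ hX0 hX1.le h1
        exact (pow_le_pow_iff_left₀ zero_le zero_le hM0).1 h3
      have h4 : δ u' / u' = w * (δ w / w) / u' := by
        rw [hδu, mul_div_cancel₀ _ hw0]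
      rw [h4, map_div₀, hvu, div_one, map_mul]
      rw [ValuationSubring.mem_nonunits_iff] at hc
      calc O.valuation w * O.valuation (δ w / w)
          ≤ O.valuation w * O.valuation (δ y / y) := by gcongr
        _ < 1 * O.valuation (δ y / y) := by
            apply mul_lt_mul_of_pos_right hc
            exact lt_trans zero_lt_one hbig
        _ = O.valuation (δ y / y) := one_mul _
  have hMv : O.valuation ((M : K)) = 1 := by
    have : (M : K) = algebraMap C K (M : C) := by simp
    rw [this]
    apply hL.const_val hO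
    exact_mod_cast hM0
  have h5 : O.valuation ((M : K) * (δ y / y)) = O.valuation (δ y / y) := by
    rw [map_mul, hMv, one_mul]
  have h6 : O.valuation ((M : K) * (δ y / y) - δ u' / u') = O.valuation (δ y / y) := by
    rw [← h5]
    apply Valuation.map_sub_eq_of_lt_left
    rw [h5]
    exact hsmall
  rw [hldu] at h6
  have h7 : (k : K) + δ u' / u' - δ u' / u' = algebraMap C K (k : C) := by simp
  rw [h7] at h6
  have h8 := (O.valuation_le_one_iff _).2 (hL.const_mem hO (k : C))
  rw [h6] at h8
  exact absurd h8 (not_le.2 hbig)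

/-- units have logarithmic derivative in the maximal ideal -/
theorem ld_unit [IsAlgClosed C] [CharZero C] [CharZero F] [FiniteDimensional F K]
    (hL : Loc V x δ) {O : ValuationSubring K} (hO : Ov V O) {u : K} (hu : O.valuation u = 1) :
    δ u / u ∈ O.nonunits := by
  obtain ⟨c, hc⟩ := hL.exists_res hO ((O.valuation_le_one_iff u).1 hu.le)
  have hδu : δ u = δ (u - algebraMap C K c) := by
    rw [map_sub, Derivation.map_algebraMap, sub_zero]
  set w := u - algebraMap C K c with hw
  by_cases hw0 : w = 0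
  · rw [hδu, hw0, map_zero, zero_div]
    exact zero_mem _
  · have h4 : δ u / u = w * (δ w / w) / u := by
      rw [hδu, mul_div_cancel₀ _ hw0]
    rw [ValuationSubring.mem_nonunits_iff] at hc ⊢
    rw [h4, map_div₀, hu, div_one, map_mul]
    exact mul_lt_one_of_lt_of_le hc ((O.valuation_le_one_iff _).2 (hL.ld_VInt hw0 O hO))

/-- the residue of the logarithmic derivative is in `(1/M) ℤ` -/
theorem ld_res [IsAlgClosed C] [CharZero C] [CharZero F] [FiniteDimensional F K]
    (hL : Loc V x δ) {O : ValuationSubring K} (hO : Ov V O) {z : K} (hz : z ≠ 0) :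
    ∃ k : ℤ, δ z / z - algebraMap C K ((k : C) / ((Module.finrank F K).factorial : C)) ∈
      O.nonunits := by
  obtain ⟨k, u, hu0, hvu, -, hldu⟩ := hL.exists_unit hO hz
  refine ⟨k, ?_⟩
  have h1 := hL.ld_unit hO hvu
  set M := (Module.finrank F K).factorial with hM
  have hM0 : (M : C) ≠ 0 := by
    rw [Nat.cast_ne_zero]
    exact Nat.factorial_ne_zero _
  have hMK : (M : K) ≠ 0 := by
    have : (M : K) = algebraMap C K (M : C) := by simp
    rw [this]
    exact (_root_.map_ne_zero _).2 hM0
  have h2 : δ z / z - algebraMap C K ((k : C) / (M : C)) = algebraMap C K (M : C)⁻¹ * (δ u / u) := by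
    have h3 : δ z / z = ((k : K) + δ u / u) / M := by
      rw [← hldu, mul_div_cancel_left₀ _ hMK]
    rw [h3, map_div₀, map_inv₀, map_intCast, map_natCast]
    field_simp
    ring
  rw [h2]
  rw [ValuationSubring.mem_nonunits_iff] at h1 ⊢
  rw [map_mul, hL.const_val hO (inv_ne_zero hM0), one_mul]
  exact h1

/-- divisibility of the divisor gives divisibility of the residue -/
theorem ld_res_div [IsAlgClosed C] [CharZero C] [CharZero F] [FiniteDimensional F K]
    (hL : Loc V x δ) {O : ValuationSubring K} (hO : Ov V O) {f g : K} (hf : f ≠ 0) {q : ℕ}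
    (hq : q ≠ 0) (hfg : O.valuation f = O.valuation g ^ q) :
    ∃ k : ℤ, δ f / f - algebraMap C K ((q : C) * ((k : C) / ((Module.finrank F K).factorial : C))) ∈
      O.nonunits := by
  have hg : g ≠ 0 := by
    rintro rfl
    rw [map_zero, zero_pow hq] at hfg
    exact hf ((map_eq_zero _).1 hfg)
  obtain ⟨k, hk⟩ := hL.ld_res hO hg
  refine ⟨k, ?_⟩
  set M := (Module.finrank F K).factorial with hM
  have hgq : g ^ q ≠ 0 := pow_ne_zero _ hg
  set w := f / g ^ q with hw
  have hw0 : w ≠ 0 := div_ne_zero hf hgq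
  have hvw : O.valuation w = 1 := by
    rw [hw, map_div₀, map_pow, hfg, div_self]
    exact pow_ne_zero _ (by simpa using hg)
  have h1 := hL.ld_unit hO hvw
  have h2 : δ f / f = q * (δ g / g) + δ w / w := by
    rw [← ld_pow δ hg, ← ld_mul δ hgq hw0]
    rw [hw, mul_div_cancel₀ _ hgq]
  have h3 : δ f / f - algebraMap C K ((q : C) * ((k : C) / (M : C))) =
      algebraMap C K (q : C) * (δ g / g - algebraMap C K ((k : C) / (M : C))) + δ w / w := by
    rw [h2, map_mul, map_natCast]
    ring
  rw [h3]
  refine add_mem ?_ h1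
  rw [ValuationSubring.mem_nonunits_iff] at hk ⊢
  rw [map_mul, mul_comm]
  exact mul_lt_one_of_lt_of_le hk ((O.valuation_le_one_iff _).2 (hL.const_mem hO _))

end Loc

end P025H587
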