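import Vale.Agent.P025.R2.H587.Vt

/-!
# Logarithmic derivatives are uniformly bounded over a valuation subring

Helper file for the Hodge-Tate forms (blueprint (6.1)).
-/

universe u v w

namespace P025H587

open Polynomial

section ld

variable {C : Type w} {K : Type v} [Field C] [Field K] [Algebra C K]

theorem ld_mul (δ : Derivation C K K) {x y : K} (hx : x ≠ 0) (hy : y ≠ 0) :
    δ (x * y) / (x * y) = δ x / x + δ y / y := by
  rw [Derivation.leibniz, smul_eq_mul, smul_eq_mul]
  field_simp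
  ring

theorem ld_pow (δ : Derivation C K K) {x : K} (hx : x ≠ 0) (n : ℕ) :
    δ (x ^ n) / (x ^ n) = n * (δ x / x) := by
  induction n with
  | zero => simp
  | succ n ih =>
    rw [pow_succ, ld_mul δ (pow_ne_zero n hx) hx, ih]
    push_cast
    ring

theorem ld_div (δ : Derivation C K K) {x y : K} (hx : x ≠ 0) (hy : y ≠ 0) :
    δ (x / y) / (x / y) = δ x / x - δ y / y := by
  have h := ld_mul δ (div_ne_zero hx hy) hy
  rw [div_mul_cancel₀ x hy] at h
  rw [h]
  ring

theorem ld_inv (δ : Derivation C K K) {x : K} (hx : x ≠ 0) :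
    δ (x⁻¹) / (x⁻¹) = - (δ x / x) := by
  have h := ld_div δ (one_ne_zero (α := K)) hx
  rw [one_div] at h
  rw [h]
  simp

theorem ld_zpow (δ : Derivation C K K) {x : K} (hx : x ≠ 0) (n : ℤ) :
    δ (x ^ n) / (x ^ n) = n * (δ x / x) := by
  obtain ⟨m, rfl | rfl⟩ := n.eq_nat_or_neg
  · rw [zpow_natCast, ld_pow δ hx]
    simp
  · rw [zpow_neg, zpow_natCast, ld_inv δ (pow_ne_zero m hx), ld_pow δ hx]
    simp

end ld

section bd

variable {C : Type w} {F : Type u} {K : Type v} [Field C] [Field F] [Field K] [Algebra C K]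
  [Algebra F K] [FiniteDimensional F K] [CharZero F]

/-- a derivation with bounded logarithmic derivatives on `F` has bounded denominators -/
theorem exists_bd (V : ValuationSubring F) (δ : Derivation C K K)
    (hδ : ∀ a : F, a ≠ 0 → ∃ v ∈ V, δ (algebraMap F K a) = algebraMap F K (v * a)) :
    ∃ π ∈ V, π ≠ 0 ∧ ∀ x : K, VInt V x → VInt V (π • δ x) := by
  set b := Module.finBasis F K with hb
  obtain ⟨v, hv, hv0, hvx⟩ := exists_mul_VInt_fin V
    (Sum.elim (fun i => b i) (Sum.elim (fun i => b.traceDual i) (fun i => δ (b.traceDual i))))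
  refine ⟨v ^ 2, pow_mem hv 2, pow_ne_zero 2 hv0, ?_⟩
  intro x hx
  have hT : ∀ i, v * Algebra.trace F K (x * b i) ∈ V := by
    intro i
    have h1 := trace_mem (hx.mul (hvx (Sum.inl i)))
    rwa [Sum.elim_inl, mul_smul_comm, map_smul, smul_eq_mul] at h1
  have hT' : ∀ i, VInt V (v • δ (algebraMap F K (Algebra.trace F K (x * b i)))) := by
    intro i
    by_cases h0 : Algebra.trace F K (x * b i) = 0
    · rw [h0, map_zero, map_zero, smul_zero]
      have := VInt.coe (K := K) V.zero_mem
      rwa [map_zero] at this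
    · obtain ⟨u, hu, hu'⟩ := hδ _ h0
      rw [hu', Algebra.smul_def, ← map_mul]
      refine VInt.coe ?_
      have : v * (u * Algebra.trace F K (x * b i)) = u * (v * Algebra.trace F K (x * b i)) := by
        ring
      rw [this]
      exact V.mul_mem _ _ hu (hT i)
  have hxs : x = ∑ i, algebraMap F K (Algebra.trace F K (x * b i)) * b.traceDual i := by
    conv_lhs => rw [← b.traceDual.sum_repr x]
    refine Finset.sum_congr rfl fun i _ => ?_
    rw [Module.Basis.traceDual_repr_apply, Algebra.traceForm_apply, Algebra.smul_def]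
  have hdx : v ^ 2 • δ x = ∑ i, (algebraMap F K (v * Algebra.trace F K (x * b i)) *
      (v • δ (b.traceDual i)) + (v • b.traceDual i) *
      (v • δ (algebraMap F K (Algebra.trace F K (x * b i))))) := by
    conv_lhs => rw [hxs]
    rw [map_sum, Finset.smul_sum]
    refine Finset.sum_congr rfl fun i _ => ?_
    rw [Derivation.leibniz]
    simp only [Algebra.smul_def, map_mul, map_pow, Algebra.algebraMap_self, RingHom.id_apply]
    ring
  rw [hdx]
  refine VInt.sum _ fun i _ => VInt.add (VInt.mul (VInt.coe (hT i)) ?_) (VInt.mul ?_ (hT' i))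
  · exact hvx (Sum.inr (Sum.inr i))
  · exact hvx (Sum.inr (Sum.inl i))

/-- bounded logarithmic derivatives -/
theorem exists_ld (V : ValuationSubring F) (δ : Derivation C K K)
    (hδ : ∀ a : F, a ≠ 0 → ∃ v ∈ V, δ (algebraMap F K a) = algebraMap F K (v * a)) :
    ∃ π ∈ V, π ≠ 0 ∧ ∀ z : K, z ≠ 0 → VInt V (π • (δ z / z)) := by
  obtain ⟨π, hπ, hπ0, hbd⟩ := exists_bd V δ hδ
  set M : ℕ := (Module.finrank F K).factorial with hM
  have hM0 : (M : F) ≠ 0 := by
    rw [Nat.cast_ne_zero]
    exact Nat.factorial_ne_zero _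
  have hMV : (M : F) ∈ V := natCast_mem V M
  refine ⟨π * M, V.mul_mem _ _ hπ hMV, mul_ne_zero hπ0 hM0, ?_⟩
  intro z hz O hO
  obtain ⟨a, ha0, ha⟩ := exists_pow_eq F O hz
  have ha0' : algebraMap F K a ≠ 0 := by simpa using ha0
  have hzM : z ^ M ≠ 0 := pow_ne_zero _ hz
  set y : K := z ^ M / algebraMap F K a with hy
  have hy0 : y ≠ 0 := div_ne_zero hzM ha0'
  have hvy : O.valuation y = 1 := by
    rw [hy, map_div₀, ha, div_self]
    simpa using ha0
  have hyO : y ∈ O := (O.valuation_le_one_iff y).1 hvy.le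
  have hyi : y⁻¹ ∈ O := by
    rw [← O.valuation_le_one_iff, map_inv₀, hvy, inv_one]
  -- `π • δ y ∈ O`
  have hdy : π • δ y ∈ O := by
    obtain ⟨b, s, hb, hs, hsi, hs0, hbs⟩ := exists_frac V hyO
    have h1 : δ b = s * δ y + y * δ s := by
      rw [hbs, Derivation.leibniz, smul_eq_mul, smul_eq_mul]
    have h2 : π • δ y = (π • δ b - y * (π • δ s)) * s⁻¹ := by
      rw [h1]
      simp only [Algebra.smul_def]
      field_simp
      ring
    rw [h2]
    exact O.mul_mem _ _ (sub_mem (hbd b hb O hO) (O.mul_mem _ _ hyO (hbd s hs O hO))) hsi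
  have hL : (M : K) * (δ z / z) = δ (algebraMap F K a) / algebraMap F K a + δ y / y := by
    rw [← ld_pow δ hz, ← ld_mul δ ha0' hy0]
    congr 2 <;> rw [hy, mul_div_cancel₀ _ ha0']
  obtain ⟨u, hu, hua⟩ := hδ a ha0
  have h3 : (π * (M : F)) • (δ z / z) = algebraMap F K (π * u) + (π • δ y) * y⁻¹ := by
    have h4 : δ (algebraMap F K a) / algebraMap F K a = algebraMap F K u := by
      rw [hua, map_mul, mul_div_assoc, div_self ha0', mul_one]
    rw [h4] at hL
    rw [Algebra.smul_def, map_mul, map_natCast, mul_assoc, hL, map_mul, Algebra.smul_def]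
    ring
  rw [h3]
  exact O.add_mem _ _ (hO.mem.2 (V.mul_mem _ _ hπ hu)) (O.mul_mem _ _ hdy hyi)

end bd

end P025H587
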