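import Vale.Agent.P025.R2.H587.Lim

/-!
# Hodge-Tate forms: existence (blueprint (6.1))
-/

universe u v w

namespace P025H587

open Polynomial

section lim

variable {C : Type u} {K : Type v} [NormedField C] [IsUltrametricDist C] [CompleteSpace C]
  [IsAlgClosed C] [CharZero C] [Field K] [Algebra C K] [Algebra (RatFunc C) K]
  [IsScalarTower C (RatFunc C) K] [FiniteDimensional (RatFunc C) K]

/-- the traces converge to polynomials -/
theorem exists_lim_tr {p : ℕ} (hp : p.Prime) (h1 : ‖(p : C)‖ < 1) {D : Derivation C K K}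
    (hD : IsDt D) {b : K} (hb : IntT C b) {f : ℕ → K} (hf : IsSys C p f) :
    ∃ P : C[X], ∀ w : AbsoluteValue (RatFunc C) ℝ, IsNonarchimedean w →
      (∀ c : C, w (algebraMap C (RatFunc C) c) = ‖c‖) → ∃ A : ℝ, 0 ≤ A ∧ ∀ m,
        w (Algebra.trace (RatFunc C) K (b * (D (f m) / f m)) - pl P) ≤ A * ‖(p : C)‖ ^ m := by
  obtain ⟨A, d, n, hA, hAf⟩ := exists_tr_bound hD hb
  obtain ⟨G, hG, hGf⟩ := exists_gauss_bound hD b
  set g : ℕ → RatFunc C := fun m => Algebra.trace (RatFunc C) K (b * (D (f m) / f m)) with hg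
  set r : ℝ := ‖(p : C)‖ with hr
  have hr0 : 0 ≤ r := norm_nonneg _
  have hPm : ∀ m, ∃ P : C[X], P.natDegree ≤ max n d ∧ ∀ w : AbsoluteValue (RatFunc C) ℝ,
      IsNonarchimedean w → (∀ c : C, w (algebraMap C (RatFunc C) c) = ‖c‖) →
      ∀ ρ : ℝ, 0 < ρ → (∀ a, ρ ≤ w (lin a)) →
      w (g m - pl P) ≤ (A * r ^ m) * max 1 (w RatFunc.X) ^ (d + 1) / ρ := by
    intro m
    obtain ⟨h2, h3⟩ := hAf (p ^ m) (f m) (pow_ne_zero _ hp.ne_zero) (hf.ne m) (hf.div m)
    refine rat_approx (by positivity) ?_ h3
    intro a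
    obtain ⟨c, hc, hc'⟩ := h2 a
    refine ⟨c, ?_, hc'⟩
    rwa [Nat.cast_pow, norm_pow] at hc
  choose P hPd hP using hPm
  have hgc : ∀ c : C, P025H373.gauss C (algebraMap C (RatFunc C) c) = ‖c‖ := by
    intro c
    rw [← pl_const, pl, P025H373.gauss_poly, P025H373.gp_C]
  have hgX : P025H373.gauss C RatFunc.X = 1 := by
    rw [← RatFunc.algebraMap_X, P025H373.gauss_poly, P025H373.gp_X]
  have hgauss : ∀ m, P025H373.gauss C (g m - pl (P m)) ≤ A * r ^ m := by
    intro m
    have h2 := hP m (P025H373.gauss C) P025H373.gauss_na hgc 1 one_pos one_le_gauss_lin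
    rwa [hgX, max_self, one_pow, mul_one, div_one] at h2
  have hstep : ∀ m, P025H373.gauss C (g (m + 1) - g m) ≤ G * r ^ m := by
    intro m
    obtain ⟨h, hh⟩ := hf.succ m
    have hh0 : h ≠ 0 := by
      rintro rfl
      have := hf.ne (m + 1)
      rw [hh, zero_pow (pow_ne_zero _ hp.ne_zero), mul_zero] at this
      exact this rfl
    have h2 : D (f (m + 1)) / f (m + 1) = D (f m) / f m + ((p ^ m : ℕ) : K) * (D h / h) := by
      rw [hh, ld_mul D (hf.ne m) (pow_ne_zero _ hh0), ld_pow D hh0]
    have h3 : g (m + 1) - g m =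
        algebraMap C (RatFunc C) ((p : C) ^ m) *
          Algebra.trace (RatFunc C) K (b * (D h / h)) := by
      have h4 : b * (D (f (m + 1)) / f (m + 1)) = b * (D (f m) / f m) +
          (algebraMap C (RatFunc C) ((p : C) ^ m)) • (b * (D h / h)) := by
        rw [h2, Algebra.smul_def, ← IsScalarTower.algebraMap_apply C (RatFunc C) K, map_pow,
          map_natCast, Nat.cast_pow]
        ring
      simp only [hg]
      rw [h4, map_add, map_smul, smul_eq_mul, add_sub_cancel_left]
    rw [h3, map_mul, hgc, norm_pow, mul_comm]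
    exact mul_le_mul_of_nonneg_right (hGf h hh0) (by positivity)
  set B : ℝ := max A G with hB
  have hB0 : 0 ≤ B := hA.trans (le_max_left _ _)
  have hPP : ∀ m, P025H373.gauss C (pl (P m) - pl (P (m + 1))) ≤ B * r ^ m := by
    intro m
    have h2 : pl (P m) - pl (P (m + 1)) =
        (g (m + 1) - pl (P (m + 1))) + (-(g (m + 1) - g m) + -(g m - pl (P m))) := by ring
    rw [h2]
    refine (P025H373.gauss_na _ _).trans (max_le ?_ ((P025H373.gauss_na _ _).trans (max_le ?_ ?_)))
    · refine (hgauss (m + 1)).trans ?_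
      have h3 : r ^ (m + 1) ≤ r ^ m := pow_le_pow_of_le_one hr0 h1.le (by omega)
      exact mul_le_mul (le_max_left _ _) h3 (by positivity) hB0
    · rw [AbsoluteValue.map_neg]
      refine (hstep m).trans ?_
      exact mul_le_mul_of_nonneg_right (le_max_right _ _) (by positivity)
    · rw [AbsoluteValue.map_neg]
      refine (hgauss m).trans ?_
      exact mul_le_mul_of_nonneg_right (le_max_left _ _) (by positivity)
  have hcoef : ∀ i m, dist ((P m).coeff i) ((P (m + 1)).coeff i) ≤ B * r ^ m := by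
    intro i m
    have h2 := hPP m
    rw [pl, pl, ← map_sub, P025H373.gauss_poly] at h2
    rw [dist_eq_norm, ← coeff_sub]
    exact (P025H373.norm_coeff_le _ i).trans h2
  choose π hπ using fun i => cauchySeq_tendsto_of_complete
    (cauchySeq_of_le_geometric r B h1 (hcoef i))
  have hdist : ∀ i m, ‖(P m).coeff i - π i‖ ≤ B / (1 - r) * r ^ m := by
    intro i m
    have h2 := dist_le_of_le_geometric_of_tendsto r B h1 (hcoef i) (hπ i) m
    rw [dist_eq_norm] at h2
    refine h2.trans (le_of_eq ?_)
    ring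
  set N : ℕ := max n d with hN
  refine ⟨∑ i ∈ Finset.range (N + 1), monomial i (π i), ?_⟩
  intro w hna hw
  obtain ⟨ρ, hρ, hρa⟩ := exists_dist hna hw
  have hr1 : 0 < 1 - r := by linarith
  have hE : 0 ≤ B / (1 - r) := by positivity
  set W : ℝ := max 1 (w RatFunc.X) with hW
  have hW1 : 1 ≤ W := le_max_left _ _
  have hW0 : 0 ≤ W := by linarith
  have hPw : ∀ m, w (pl (P m) - pl (∑ i ∈ Finset.range (N + 1), monomial i (π i))) ≤
      B / (1 - r) * r ^ m * W ^ N := by
    intro m
    have h2 : P m - ∑ i ∈ Finset.range (N + 1), monomial i (π i) =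
        ∑ i ∈ Finset.range (N + 1), monomial i ((P m).coeff i - π i) := by
      conv_lhs => rw [(P m).as_sum_range' (N + 1) (Nat.lt_succ_of_le (hPd m))]
      rw [← Finset.sum_sub_distrib]
      refine Finset.sum_congr rfl fun i _ => ?_
      rw [← map_sub]
    rw [pl, pl, ← map_sub, h2, map_sum]
    refine na_sum_le hna _ (by positivity) fun i hi => ?_
    rw [Finset.mem_range] at hi
    rw [← C_mul_X_pow_eq_monomial, map_mul, map_mul, map_pow, map_pow, RatFunc.algebraMap_X]
    have h3 : w (algebraMap C[X] (RatFunc C) (Polynomial.C ((P m).coeff i - π i))) =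
        ‖(P m).coeff i - π i‖ := by
      rw [← hw, ← pl_const]
      rfl
    rw [h3]
    have h4 : w RatFunc.X ^ i ≤ W ^ N := by
      calc w RatFunc.X ^ i ≤ W ^ i := by
            have := w.nonneg RatFunc.X
            gcongr
            exact le_max_right _ _
        _ ≤ W ^ N := pow_le_pow_right₀ hW1 (by omega)
    have h5 := w.nonneg RatFunc.X
    exact mul_le_mul (hdist i m) h4 (by positivity) (by positivity)
  refine ⟨A * W ^ (d + 1) / ρ + B / (1 - r) * W ^ N, by positivity, fun m => ?_⟩
  have h2 : g m - pl (∑ i ∈ Finset.range (N + 1), monomial i (π i)) =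
      (g m - pl (P m)) + (pl (P m) - pl (∑ i ∈ Finset.range (N + 1), monomial i (π i))) := by ring
  show w (g m - _) ≤ _
  rw [h2]
  refine (w.add_le _ _).trans ((add_le_add (hP m w hna hw ρ hρ hρa) (hPw m)).trans (le_of_eq ?_))
  ring

theorem exists_theta_dt {p : ℕ} (hp : p.Prime) (h1 : ‖(p : C)‖ < 1) {D : Derivation C K K}
    (hD : IsDt D) {f : ℕ → K} (hf : IsSys C p f) : ∃ θ : K, ∀ w : AbsoluteValue K ℝ,
      IsNonarchimedean w → (∀ c : C, w (algebraMap C K c) = ‖c‖) →
      ∃ A : ℝ, ∀ m, w (D (f m) / f m - θ) ≤ A * ‖(p : C)‖ ^ m := by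
  obtain ⟨N, b, e, hb, hdual⟩ := exists_dual (C := C) (K := K)
  choose P hP using fun j => exists_lim_tr hp h1 hD (hb j) hf
  refine ⟨∑ j, algebraMap (RatFunc C) K (pl (P j)) * e j, ?_⟩
  intro w hna hw
  set w' : AbsoluteValue (RatFunc C) ℝ := w.comp (algebraMap (RatFunc C) K).injective with hw'
  have hw'a : ∀ y, w' y = w (algebraMap (RatFunc C) K y) := fun _ => rfl
  have hna' : IsNonarchimedean w' := by
    intro x y
    rw [hw'a, hw'a, hw'a, map_add]
    exact hna _ _
  have hc' : ∀ c : C, w' (algebraMap C (RatFunc C) c) = ‖c‖ := by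
    intro c
    rw [hw'a, ← IsScalarTower.algebraMap_apply C (RatFunc C) K, hw]
  choose A hA0 hA using fun j => hP j w' hna' hc'
  refine ⟨∑ j, A j * w (e j), fun m => ?_⟩
  have h2 : D (f m) / f m - ∑ j, algebraMap (RatFunc C) K (pl (P j)) * e j =
      ∑ j, algebraMap (RatFunc C) K (Algebra.trace (RatFunc C) K (b j * (D (f m) / f m)) -
        pl (P j)) * e j := by
    conv_lhs => rw [hdual (D (f m) / f m)]
    rw [← Finset.sum_sub_distrib]
    refine Finset.sum_congr rfl fun j _ => ?_
    rw [(algebraMap (RatFunc C) K).map_sub]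
    ring
  rw [h2, Finset.sum_mul]
  refine (AbsoluteValue.sum_le w _ _).trans (Finset.sum_le_sum fun j _ => ?_)
  rw [map_mul, ← hw'a]
  have := w.nonneg (e j)
  calc w' (Algebra.trace (RatFunc C) K (b j * (D (f m) / f m)) - pl (P j)) * w (e j)
      ≤ (A j * ‖(p : C)‖ ^ m) * w (e j) := by
        gcongr
        exact hA j m
    _ = A j * w (e j) * ‖(p : C)‖ ^ m := by ring

end lim

section general

/-- derivations vanishing on `t` vanish -/
theorem derivation_eq_zero {C : Type u} {K : Type v} [Field C] [CharZero C] [Field K]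
    [Algebra C K] [Algebra (RatFunc C) K] [IsScalarTower C (RatFunc C) K]
    [Algebra.IsAlgebraic (RatFunc C) K] (D : Derivation C K K)
    (hD : D (algebraMap (RatFunc C) K RatFunc.X) = 0) (x : K) : D x = 0 := by
  have : CharZero (RatFunc C) := charZero_of_injective_algebraMap
    (algebraMap C (RatFunc C)).injective
  have h1 : ∀ P : C[X], D (algebraMap (RatFunc C) K (pl P)) = 0 := by
    intro P
    have h2 : algebraMap (RatFunc C) K (pl P) = aeval (algebraMap (RatFunc C) K RatFunc.X) P := by
      rw [aeval_algebraMap_apply]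
      congr 1
      rw [← RatFunc.algebraMap_X, aeval_algebraMap_apply, aeval_X_left_apply]
      rfl
    rw [h2, Derivation.map_aeval, hD, smul_zero]
  have h3 : ∀ f : RatFunc C, D (algebraMap (RatFunc C) K f) = 0 := by
    intro f
    have h4 : algebraMap (RatFunc C) K f * algebraMap (RatFunc C) K (pl f.denom) =
        algebraMap (RatFunc C) K (pl f.num) := by
      rw [← map_mul]
      congr 1
      have h5 : pl f.num / pl f.denom = f := RatFunc.num_div_denom f
      exact ((div_eq_iff (pl_ne (RatFunc.denom_ne_zero f))).1 h5).symm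
    have h6 := congrArg D h4
    rw [Derivation.leibniz, h1, h1, smul_zero, zero_add, smul_eq_mul] at h6
    have h7 : algebraMap (RatFunc C) K (pl f.denom) ≠ 0 := by
      simpa using pl_ne (RatFunc.denom_ne_zero f)
    exact (mul_eq_zero.1 h6).resolve_left h7
  let D' : Derivation (RatFunc C) K K :=
    { toFun := D
      map_add' := D.map_add
      map_smul' := by
        intro a y
        rw [Algebra.smul_def, Derivation.leibniz, h3, smul_zero, add_zero, RingHom.id_apply,
          smul_eq_mul, Algebra.smul_def]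
      map_one_eq_zero' := D.map_one_eq_zero
      leibniz' := D.leibniz }
  have hx : IsIntegral (RatFunc C) x := Algebra.IsIntegral.isIntegral x
  have h8 := Derivation.map_aeval D' (minpoly (RatFunc C) x) x
  rw [minpoly.aeval, map_zero] at h8
  have h9 : aeval x (derivative (minpoly (RatFunc C) x)) ≠ 0 := by
    apply Polynomial.Separable.aeval_derivative_ne_zero
    · exact (minpoly.irreducible hx).separable
    · exact minpoly.aeval _ _
  rw [smul_eq_mul, eq_comm, mul_eq_zero] at h8
  exact h8.resolve_left h9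

variable {C : Type u} [NontriviallyNormedField C] [IsUltrametricDist C] [CompleteSpace C]
  [IsAlgClosed C] [CharZero C]
variable {K : Type v} [Field K] [Algebra C K]

omit [IsUltrametricDist C] [CompleteSpace C] [IsAlgClosed C] [CharZero C] in
theorem IsTheta.smul {p : ℕ} {D : Derivation C K K} {f : ℕ → K} {θ : K} (h : IsTheta p D f θ)
    (x : K) : IsTheta p (x • D) f (x * θ) := by
  intro w hw
  obtain ⟨A, hA⟩ := h w hw
  refine ⟨w x * A, fun m => ?_⟩
  have h1 : (x • D) (f m) / f m - x * θ = x * (D (f m) / f m - θ) := by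
    rw [Derivation.smul_apply, smul_eq_mul]
    ring
  rw [h1, map_mul, mul_assoc]
  exact mul_le_mul_of_nonneg_left (hA m) (w.nonneg x)

omit [IsUltrametricDist C] [CompleteSpace C] [IsAlgClosed C] [CharZero C] in
/-- the algebra structure of `K` over the rational functions -/
theorem exists_ratFunc_algebra (hK : IsFF C K) : ∃ φ : RatFunc C →ₐ[C] K,
    @FiniteDimensional (RatFunc C) K _ _ φ.toRingHom.toAlgebra.toModule := by
  obtain ⟨t, ht, hfin⟩ := hK
  let φ : RatFunc C →ₐ[C] K :=
    (IntermediateField.val _).comp (RatFunc.algEquivOfTranscendental t ht).toAlgHom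
  refine ⟨φ, ?_⟩
  let _ : Algebra (RatFunc C) K := φ.toRingHom.toAlgebra
  have hfin' : Module.Finite (IntermediateField.adjoin C {t}) K := hfin
  refine Module.Finite.of_equiv_equiv
    (RatFunc.algEquivOfTranscendental t ht).symm.toRingEquiv (RingEquiv.refl K) ?_
  ext y
  obtain ⟨z, rfl⟩ := (RatFunc.algEquivOfTranscendental t ht).surjective y
  show φ ((RatFunc.algEquivOfTranscendental t ht).symm
    (RatFunc.algEquivOfTranscendental t ht z)) = _
  rw [AlgEquiv.symm_apply_apply]
  rfl

/-- **Hodge-Tate forms** -/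
theorem exists_isTheta (hK : IsFF C K) {p : ℕ} (hp : p.Prime) (h1 : ‖(p : C)‖ < 1)
    (D : Derivation C K K) {f : ℕ → K} (hf : IsSys C p f) : ∃ θ : K, IsTheta p D f θ := by
  obtain ⟨φ, hφ⟩ := exists_ratFunc_algebra hK
  let _ : Algebra (RatFunc C) K := φ.toRingHom.toAlgebra
  have : IsScalarTower C (RatFunc C) K := IsScalarTower.of_algebraMap_eq' φ.comp_algebraMap.symm
  have : FiniteDimensional (RatFunc C) K := hφ
  set t : K := algebraMap (RatFunc C) K RatFunc.X with ht
  by_cases h0 : D t = 0
  · refine ⟨0, fun w _ => ⟨0, fun m => ?_⟩⟩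
    rw [derivation_eq_zero D h0, zero_div, sub_zero, map_zero, zero_mul]
  · have hD : IsDt ((D t)⁻¹ • D) := by
      rw [IsDt, Derivation.smul_apply, smul_eq_mul]
      exact inv_mul_cancel₀ h0
    obtain ⟨θ, hθ⟩ := exists_theta_dt hp h1 hD hf
    have h2 : IsTheta p ((D t)⁻¹ • D) f θ := fun w hw => hθ w hw.na hw.const
    have h3 := h2.smul (D t)
    rw [smul_smul, mul_inv_cancel₀ h0, one_smul] at h3
    exact ⟨_, h3⟩

end general

end P025H587
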