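import Vale.Agent.P025.R2.H587.Main

/-!
# Norms of function fields, uniqueness and linearity of Hodge-Tate forms
-/

universe u v w

namespace P025H587

open Polynomial

section ext

variable {F : Type u} {K : Type v} [Field F] [Field K] [Algebra F K] [FiniteDimensional F K]

/-- extension of an ultrametric absolute value to a finite extension -/
theorem exists_ext_abs (w₀ : AbsoluteValue F ℝ) (h₀ : IsNonarchimedean w₀) :
    ∃ w : AbsoluteValue K ℝ, IsNonarchimedean w ∧ ∀ f : F, w (algebraMap F K f) = w₀ f := by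
  obtain ⟨O, hO⟩ := exists_Ov (K := K) (Vw w₀ h₀)
  -- comparison of the values
  have hle : ∀ a b : F, O.valuation (algebraMap F K a) ≤ O.valuation (algebraMap F K b) ↔
      w₀ a ≤ w₀ b := by
    intro a b
    by_cases hb : b = 0
    · rw [hb, map_zero, map_zero, map_zero]
      constructor
      · intro h
        have h1 : O.valuation (algebraMap F K a) = 0 := le_antisymm h zero_le
        rw [map_eq_zero, map_eq_zero] at h1
        rw [h1, map_zero]
      · intro h
        have h1 : w₀ a = 0 := le_antisymm h (w₀.nonneg a)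
        rw [w₀.eq_zero] at h1
        rw [h1, map_zero, map_zero]
    · have hb' : algebraMap F K b ≠ 0 := by simpa using hb
      have h1 : O.valuation (algebraMap F K a) ≤ O.valuation (algebraMap F K b) ↔
          algebraMap F K (a / b) ∈ O := by
        rw [← O.valuation_le_one_iff, map_div₀, map_div₀, div_le_one₀]
        rw [zero_lt_iff]
        simpa using hb
      rw [h1, hO.mem, mem_Vw, map_div₀, div_le_one₀ (w₀.pos hb)]
  have heq : ∀ a b : F, O.valuation (algebraMap F K a) = O.valuation (algebraMap F K b) →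
      w₀ a = w₀ b := by
    intro a b h
    exact le_antisymm ((hle a b).1 h.le) ((hle b a).1 h.ge)
  set M : ℕ := (Module.finrank F K).factorial with hM
  have hM0 : M ≠ 0 := Nat.factorial_ne_zero _
  have hex : ∀ z : K, ∃ a : F, O.valuation z ^ M = O.valuation (algebraMap F K a) := by
    intro z
    by_cases hz : z = 0
    · refine ⟨0, ?_⟩
      rw [hz, map_zero, map_zero, map_zero, zero_pow hM0]
    · obtain ⟨a, _, ha⟩ := exists_pow_eq F O hz
      exact ⟨a, by rw [← map_pow]; exact ha⟩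
  choose a ha using hex
  have hMr : (M : ℝ) ≠ 0 := by exact_mod_cast hM0
  have hmon : ∀ y z : K, O.valuation y ≤ O.valuation z → w₀ (a y) ≤ w₀ (a z) := by
    intro y z h
    rw [← hle, ← ha, ← ha]
    exact pow_le_pow_left₀ zero_le h M
  have hrmon : ∀ y z : K, O.valuation y ≤ O.valuation z →
      w₀ (a y) ^ ((M : ℝ)⁻¹) ≤ w₀ (a z) ^ ((M : ℝ)⁻¹) := by
    intro y z h
    exact Real.rpow_le_rpow (w₀.nonneg _) (hmon y z h) (by positivity)
  have hna : ∀ y z : K, w₀ (a (y + z)) ^ ((M : ℝ)⁻¹) ≤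
      max (w₀ (a y) ^ ((M : ℝ)⁻¹)) (w₀ (a z) ^ ((M : ℝ)⁻¹)) := by
    intro y z
    rcases le_total (O.valuation y) (O.valuation z) with h | h
    · refine (hrmon _ z ?_).trans (le_max_right _ _)
      exact (O.valuation.map_add y z).trans (max_le h le_rfl)
    · refine (hrmon _ y ?_).trans (le_max_left _ _)
      exact (O.valuation.map_add y z).trans (max_le le_rfl h)
  let w : AbsoluteValue K ℝ :=
    { toFun := fun z => w₀ (a z) ^ ((M : ℝ)⁻¹)
      map_mul' := by
        intro y z
        rw [← Real.mul_rpow (w₀.nonneg _) (w₀.nonneg _), ← map_mul]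
        congr 1
        apply heq
        rw [← ha, map_mul, map_mul, map_mul, ← ha, ← ha, mul_pow]
      nonneg' := fun z => Real.rpow_nonneg (w₀.nonneg _) _
      eq_zero' := by
        intro z
        rw [Real.rpow_eq_zero (w₀.nonneg _) (inv_ne_zero hMr), w₀.eq_zero]
        constructor
        · intro h
          have h1 := ha z
          rw [h, map_zero, map_zero] at h1
          have h2 := pow_eq_zero_iff hM0 |>.1 h1
          simpa using h2
        · rintro rfl
          have h1 := ha 0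
          rw [map_zero, zero_pow hM0] at h1
          have h2 := h1.symm
          rw [map_eq_zero, map_eq_zero] at h2
          exact h2
      add_le' := by
        intro y z
        exact (hna y z).trans (max_le_add_of_nonneg (Real.rpow_nonneg (w₀.nonneg _) _)
          (Real.rpow_nonneg (w₀.nonneg _) _)) }
  refine ⟨w, hna, fun f => ?_⟩
  show w₀ (a (algebraMap F K f)) ^ ((M : ℝ)⁻¹) = w₀ f
  have h1 : w₀ (a (algebraMap F K f)) = w₀ f ^ M := by
    rw [← map_pow]
    apply heq
    rw [← ha, map_pow, map_pow]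
  rw [h1, ← Real.rpow_natCast, ← Real.rpow_mul (w₀.nonneg _), mul_inv_cancel₀ hMr, Real.rpow_one]

end ext

section theta

variable {C : Type u} [NontriviallyNormedField C]
variable {K : Type v} [Field K] [Algebra C K]

theorem exists_isNm [IsUltrametricDist C] (hK : IsFF C K) : ∃ w : AbsoluteValue K ℝ, IsNm C w := by
  obtain ⟨φ, hφ⟩ := exists_ratFunc_algebra hK
  let _ : Algebra (RatFunc C) K := φ.toRingHom.toAlgebra
  have : IsScalarTower C (RatFunc C) K := IsScalarTower.of_algebraMap_eq' φ.comp_algebraMap.symm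
  have : FiniteDimensional (RatFunc C) K := hφ
  obtain ⟨w, hna, hw⟩ := exists_ext_abs (K := K) (P025H373.gauss C) P025H373.gauss_na
  refine ⟨w, hna, fun c => ?_⟩
  rw [IsScalarTower.algebraMap_apply C (RatFunc C) K, hw, ← pl_const, pl, P025H373.gauss_poly,
    P025H373.gp_C]

theorem theta_unique {p : ℕ} (h1 : ‖(p : C)‖ < 1) {D : Derivation C K K} {f : ℕ → K} {θ θ' : K}
    {w : AbsoluteValue K ℝ} (h : ∃ A : ℝ, ∀ m, w (D (f m) / f m - θ) ≤ A * ‖(p : C)‖ ^ m)
    (h' : ∃ A : ℝ, ∀ m, w (D (f m) / f m - θ') ≤ A * ‖(p : C)‖ ^ m) : θ = θ' := by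
  obtain ⟨A, hA⟩ := h
  obtain ⟨B, hB⟩ := h'
  have h2 : ∀ m, w (θ - θ') ≤ (A + B) * ‖(p : C)‖ ^ m := by
    intro m
    have h3 : θ - θ' = -(D (f m) / f m - θ) + (D (f m) / f m - θ') := by ring
    rw [h3, add_mul]
    refine (w.add_le _ _).trans (add_le_add ?_ (hB m))
    rw [w.map_neg]
    exact hA m
  have h4 : Filter.Tendsto (fun m : ℕ => (A + B) * ‖(p : C)‖ ^ m) Filter.atTop
      (nhds ((A + B) * 0)) :=
    (tendsto_pow_atTop_nhds_zero_of_lt_one (norm_nonneg _) h1).const_mul _
  rw [mul_zero] at h4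
  have h5 : w (θ - θ') ≤ 0 := ge_of_tendsto' h4 h2
  have h6 : w (θ - θ') = 0 := le_antisymm h5 (w.nonneg _)
  rw [w.eq_zero] at h6
  exact sub_eq_zero.1 h6

theorem IsTheta.unique [IsUltrametricDist C] (hK : IsFF C K) {p : ℕ} (h1 : ‖(p : C)‖ < 1)
    {D : Derivation C K K} {f : ℕ → K} {θ θ' : K} (h : IsTheta p D f θ) (h' : IsTheta p D f θ') :
    θ = θ' := by
  obtain ⟨w, hw⟩ := exists_isNm hK
  exact theta_unique h1 (h w hw) (h' w hw)

theorem IsTheta.mul {p : ℕ} {D : Derivation C K K} {f g : ℕ → K} {θ θ' : K}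
    (hf : ∀ m, f m ≠ 0) (hg : ∀ m, g m ≠ 0)
    (h : IsTheta p D f θ) (h' : IsTheta p D g θ') :
    IsTheta p D (fun m => f m * g m) (θ + θ') := by
  intro w hw
  obtain ⟨A, hA⟩ := h w hw
  obtain ⟨B, hB⟩ := h' w hw
  refine ⟨A + B, fun m => ?_⟩
  have h3 : D (f m * g m) / (f m * g m) - (θ + θ') =
      (D (f m) / f m - θ) + (D (g m) / g m - θ') := by
    rw [ld_mul D (hf m) (hg m)]
    ring
  show w (D (f m * g m) / (f m * g m) - (θ + θ')) ≤ _
  rw [h3, add_mul]
  exact (w.add_le _ _).trans (add_le_add (hA m) (hB m))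

/-- `ℤ_p`-linearity: powers with exponents converging to `a` -/
theorem IsTheta.zpow {p : ℕ} (h1 : ‖(p : C)‖ < 1) {D : Derivation C K K} {f : ℕ → K} {θ : K}
    (hf : ∀ m, f m ≠ 0) (h : IsTheta p D f θ) (a : C) (e : ℕ → ℤ) {B : ℝ}
    (he : ∀ m, ‖(e m : C) - a‖ ≤ B * ‖(p : C)‖ ^ m) :
    IsTheta p D (fun m => f m ^ e m) (algebraMap C K a * θ) := by
  intro w hw
  obtain ⟨A, hA⟩ := h w hw
  have hB : 0 ≤ B := by
    have := (norm_nonneg _).trans (he 0)
    rwa [pow_zero, mul_one] at this
  have hA0 : 0 ≤ A := by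
    have := (w.nonneg _).trans (hA 0)
    rwa [pow_zero, mul_one] at this
  refine ⟨B * (w θ + A) + ‖a‖ * A, fun m => ?_⟩
  have h3 : D (f m ^ e m) / (f m ^ e m) - algebraMap C K a * θ =
      algebraMap C K ((e m : C) - a) * (D (f m) / f m) +
        algebraMap C K a * (D (f m) / f m - θ) := by
    rw [ld_zpow D (hf m), map_sub, map_intCast]
    ring
  show w (D (f m ^ e m) / (f m ^ e m) - algebraMap C K a * θ) ≤ _
  rw [h3]
  refine (w.add_le _ _).trans ?_
  rw [map_mul, map_mul, hw.const, hw.const]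
  have h4 : w (D (f m) / f m) ≤ w θ + A := by
    have h5 : D (f m) / f m = θ + (D (f m) / f m - θ) := by ring
    rw [h5]
    refine (w.add_le _ _).trans ?_
    have h6 : A * ‖(p : C)‖ ^ m ≤ A :=
      mul_le_of_le_one_right hA0 (pow_le_one₀ (norm_nonneg _) h1.le)
    have := hA m
    linarith
  have h7 := w.nonneg (D (f m) / f m)
  calc ‖(e m : C) - a‖ * w (D (f m) / f m) + ‖a‖ * w (D (f m) / f m - θ)
      ≤ (B * ‖(p : C)‖ ^ m) * (w θ + A) + ‖a‖ * (A * ‖(p : C)‖ ^ m) := by
        refine add_le_add (mul_le_mul (he m) h4 h7 (by positivity)) ?_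
        exact mul_le_mul_of_nonneg_left (hA m) (norm_nonneg _)
    _ = (B * (w θ + A) + ‖a‖ * A) * ‖(p : C)‖ ^ m := by ring

theorem IsTheta.of_pow {p : ℕ} (h1 : ‖(p : C)‖ < 1) [IsUltrametricDist C]
    {D : Derivation C K K} {f : ℕ → K} {θ : K} (hf : ∀ m, f m ≠ 0)
    (h : IsTheta p D f θ) (a : ℤ) (e : ℕ → ℤ) (he : ∀ m, (p : ℤ) ^ m ∣ e m - a) :
    IsTheta p D (fun m => f m ^ e m) ((a : K) * θ) := by
  have h2 := h.zpow h1 hf (a : C) e (B := 1) (fun m => by
    obtain ⟨k, hk⟩ := he m
    have h3 : ((e m : ℤ) : C) - ((a : ℤ) : C) = (p : C) ^ m * (k : C) := by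
      have := congrArg (Int.cast : ℤ → C) hk
      push_cast at this
      exact this
    rw [h3, norm_mul, norm_pow, one_mul]
    exact mul_le_of_le_one_right (by positivity) (IsUltrametricDist.norm_intCast_le_one C k))
  rwa [map_intCast] at h2

/-- the logarithmic derivatives are uniformly bounded for every norm -/
theorem exists_ld_bound [IsUltrametricDist C] [CompleteSpace C] [IsAlgClosed C] [CharZero C]
    (hK : IsFF C K) (D : Derivation C K K) {w : AbsoluteValue K ℝ} (hw : IsNm C w) :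
    ∃ A : ℝ, 0 ≤ A ∧ ∀ h : K, h ≠ 0 → w (D h / h) ≤ A := by
  obtain ⟨φ, hφ⟩ := exists_ratFunc_algebra hK
  let _ : Algebra (RatFunc C) K := φ.toRingHom.toAlgebra
  have : IsScalarTower C (RatFunc C) K := IsScalarTower.of_algebraMap_eq' φ.comp_algebraMap.symm
  have : FiniteDimensional (RatFunc C) K := hφ
  have : CharZero (RatFunc C) := charZero_of_injective_algebraMap
    (algebraMap C (RatFunc C)).injective
  set t : K := algebraMap (RatFunc C) K RatFunc.X with ht
  by_cases h0 : D t = 0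
  · refine ⟨0, le_rfl, fun h _ => ?_⟩
    rw [derivation_eq_zero D h0, zero_div, map_zero]
  · have hD : IsDt ((D t)⁻¹ • D) := by
      rw [IsDt, Derivation.smul_apply, smul_eq_mul]
      exact inv_mul_cancel₀ h0
    set w' : AbsoluteValue (RatFunc C) ℝ := w.comp (algebraMap (RatFunc C) K).injective with hw'
    have hw'a : ∀ y, w' y = w (algebraMap (RatFunc C) K y) := fun _ => rfl
    have hna' : IsNonarchimedean w' := by
      intro x y
      rw [hw'a, hw'a, hw'a, map_add]
      exact hw.na _ _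
    have hc' : ∀ c : C, w' (algebraMap C (RatFunc C) c) = ‖c‖ := by
      intro c
      rw [hw'a, ← IsScalarTower.algebraMap_apply C (RatFunc C) K, hw.const]
    obtain ⟨ρ, hρ, hρa⟩ := exists_dist hna' hc'
    obtain ⟨ϖ, hϖ0, hϖ⟩ := NormedField.exists_norm_lt C hρ
    have hϖ1 : ϖ ≠ 0 := norm_pos_iff.1 hϖ0
    obtain ⟨π, hπ, hπ0, hπl⟩ := exists_ld (Vw w' hna')
      (algebraMap C K ϖ • ((D t)⁻¹ • D)) (fun a ha => by
      refine ld_of_lin _ _ (fun c => ?_) a ha
      refine ⟨algebraMap C (RatFunc C) ϖ / lin c, ?_, ?_⟩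
      · rw [mem_Vw, map_div₀, hc', div_le_one₀ (lt_of_lt_of_le hρ (hρa c))]
        exact hϖ.le.trans (hρa c)
      · rw [Derivation.smul_apply, hD.lin, div_mul_cancel₀ _ (lin_ne c), smul_eq_mul, mul_one,
          ← IsScalarTower.algebraMap_apply C (RatFunc C) K])
    have hO : Ov (Vw w' hna') (Vw w hw.na) := by
      apply ValuationSubring.ext
      intro x
      rfl
    have hπw : 0 < w (algebraMap (RatFunc C) K π) := w.pos (by simpa using hπ0)
    refine ⟨w (D t) / (‖ϖ‖ * w (algebraMap (RatFunc C) K π)), by positivity, fun h hh => ?_⟩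
    have h1 : w (π • ((algebraMap C K ϖ • ((D t)⁻¹ • D)) h / h)) ≤ 1 := hπl h hh _ hO
    have h2 : D h / h * (algebraMap C K ϖ * algebraMap (RatFunc C) K π) =
        D t * (π • ((algebraMap C K ϖ • ((D t)⁻¹ • D)) h / h)) := by
      rw [Derivation.smul_apply, Derivation.smul_apply, Algebra.smul_def, smul_eq_mul, smul_eq_mul]
      field_simp
    have h3 := congrArg w h2
    rw [map_mul, map_mul, map_mul, hw.const] at h3
    rw [le_div_iff₀ (by positivity), h3]
    exact mul_le_of_le_one_right (w.nonneg _) h1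

end theta

end P025H587
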