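import Vale.Agent.P025.R2.H587.RatPl

/-!
# The local derivations at the places of the rational function field

Helper file for the Hodge-Tate forms (blueprint (6.1)).
-/

universe u v w

namespace P025H587

open Polynomial

variable {C : Type u} {K : Type v} [Field C] [Field K] [Algebra C K] [Algebra (RatFunc C) K]
  [IsScalarTower C (RatFunc C) K]

/-- `D` is `d/dt` -/
def IsDt (D : Derivation C K K) : Prop := D (algebraMap (RatFunc C) K RatFunc.X) = 1

theorem IsDt.lin {D : Derivation C K K} (hD : IsDt D) (b : C) :
    D (algebraMap (RatFunc C) K (lin b)) = 1 := by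
  have h1 : algebraMap (RatFunc C) K (P025H587.lin b) =
      algebraMap (RatFunc C) K RatFunc.X - algebraMap C K b := by
    rw [IsScalarTower.algebraMap_apply C (RatFunc C) K, ← map_sub]
    congr 1
    rw [P025H587.lin, map_sub, RatFunc.algebraMap_X, RatFunc.algebraMap_C, RatFunc.algebraMap_eq_C]
  rw [h1, map_sub, Derivation.map_algebraMap, sub_zero]
  exact hD

/-- `(t - a) d/dt` is a local derivation at `a` -/
theorem loc_Va [IsAlgClosed C] {D : Derivation C K K} (hD : IsDt D) (a : C) :
    Loc (Va a) (lin a) ((algebraMap (RatFunc C) K (lin a)) • D) where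
  const := Va_const a
  res := fun _ h => Va_res h
  ne := lin_ne a
  non := lin_non a
  dec := Va_dec a
  ld := by
    intro f hf
    refine ld_of_lin (Va a) _ (fun b => ?_) f hf
    refine ⟨lin a / lin b, ?_, ?_⟩
    · by_cases hab : a = b
      · rw [hab, div_self (lin_ne b)]
        exact one_mem _
      · have : (X - Polynomial.C b).eval a ≠ 0 := by
          simpa [sub_eq_zero] using hab
        exact div_mem_Va (X - Polynomial.C a) this
    · rw [Derivation.smul_apply, hD.lin, div_mul_cancel₀ _ (lin_ne b), smul_eq_mul, mul_one]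
  der := by
    rw [Derivation.smul_apply, hD.lin, smul_eq_mul, mul_one]

/-- `- t d/dt` is a local derivation at infinity -/
theorem loc_Vinf [IsAlgClosed C] {D : Derivation C K K} (hD : IsDt D) :
    Loc (Vinf C) (RatFunc.X⁻¹) ((-algebraMap (RatFunc C) K RatFunc.X) • D) where
  const := Vinf_const
  res := fun _ h => Vinf_res h
  ne := inv_ne_zero RatFunc.X_ne_zero
  non := by
    rw [mem_Vinf_nonunits (inv_ne_zero RatFunc.X_ne_zero), RatFunc.intDegree_inv,
      RatFunc.intDegree_X]
    norm_num
  dec := Vinf_dec
  ld := by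
    intro f hf
    refine ld_of_lin (Vinf C) _ (fun b => ?_) f hf
    have h1 : (-RatFunc.X / lin b : RatFunc C) ≠ 0 :=
      div_ne_zero (neg_ne_zero.2 RatFunc.X_ne_zero) (lin_ne b)
    refine ⟨-RatFunc.X / lin b, ?_, ?_⟩
    · rw [mem_Vinf h1]
      have h2 : (-RatFunc.X / lin b : RatFunc C) = pl (-X) / pl (X - Polynomial.C b) := by
        simp [pl, lin]
      rw [h2, intDegree_pl_div (neg_ne_zero.2 X_ne_zero) (X_sub_C_ne_zero b)]
      simp
    · rw [Derivation.smul_apply, hD.lin, div_mul_cancel₀ _ (lin_ne b), smul_eq_mul, mul_one,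
        map_neg]
  der := by
    have hX : algebraMap (RatFunc C) K RatFunc.X ≠ 0 := by
      simpa using RatFunc.X_ne_zero (K := C)
    have h1 := ld_inv D hX
    have h2 : D (algebraMap (RatFunc C) K RatFunc.X) = 1 := hD
    rw [h2] at h1
    rw [Derivation.smul_apply, map_inv₀, smul_eq_mul]
    field_simp at h1 ⊢
    linear_combination (-1 : K) * h1

end P025H587
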