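import Vale.Agent.P025.R2.H587.Tr

/-!
# Rational functions with small simple poles are close to polynomials

Helper file for the Hodge-Tate forms (blueprint (6.1)).
-/

universe u v w

namespace P025H587

open Polynomial

section dist

variable {C : Type u} [NormedField C] [CompleteSpace C]

/-- the distance of `t` to `C` is positive -/
theorem exists_dist {w : AbsoluteValue (RatFunc C) ℝ} (hna : IsNonarchimedean w)
    (hc : ∀ c : C, w (algebraMap C (RatFunc C) c) = ‖c‖) : ∃ ρ : ℝ, 0 < ρ ∧ ∀ a, ρ ≤ w (lin a) := by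
  by_contra hcon
  push Not at hcon
  have h1 : ∀ n : ℕ, ∃ a, w (lin a) < 1 / ((n : ℝ) + 1) := fun n => hcon _ (by positivity)
  choose a ha using h1
  have hlin : ∀ b c : C, lin b - lin c = algebraMap C (RatFunc C) (c - b) := by
    intro b c
    rw [← pl_const, lin, lin, pl, ← map_sub, Polynomial.C_sub]
    congr 1
    ring
  have hcs : CauchySeq a := by
    rw [Metric.cauchySeq_iff']
    intro ε hε
    obtain ⟨N, hN⟩ := exists_nat_one_div_lt hε
    refine ⟨N, fun n hn => ?_⟩
    rw [dist_eq_norm, ← hc, ← hlin]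
    have h2 : w (lin (a N) - lin (a n)) ≤ max (w (lin (a N))) (w (lin (a n))) := by
      have := hna (lin (a N)) (-lin (a n))
      rwa [w.map_neg, ← sub_eq_add_neg] at this
    refine lt_of_le_of_lt h2 (max_lt ((ha N).trans hN) ((ha n).trans_le ?_ |>.trans hN))
    apply one_div_le_one_div_of_le
    · positivity
    · have : (N : ℝ) ≤ n := by exact_mod_cast hn
      linarith
  obtain ⟨b, hb⟩ := cauchySeq_tendsto_of_complete hcs
  have h3 : w (lin b) = 0 := by
    apply le_antisymm _ (w.nonneg _)
    have h4 : ∀ n : ℕ, w (lin b) ≤ 1 / ((n : ℝ) + 1) + ‖a n - b‖ := by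
      intro n
      have h5 : lin b = lin (a n) + (lin b - lin (a n)) := by ring
      rw [h5, hlin]
      refine (w.add_le _ _).trans (add_le_add (ha n).le ?_)
      rw [hc]
    have h6 : Filter.Tendsto (fun n : ℕ => 1 / ((n : ℝ) + 1) + ‖a n - b‖) Filter.atTop
        (nhds (0 + 0)) := by
      apply Filter.Tendsto.add
      · exact tendsto_one_div_add_atTop_nhds_zero_nat
      · rw [← tendsto_iff_norm_sub_tendsto_zero]
        exact hb
    rw [add_zero] at h6
    exact ge_of_tendsto' h6 h4
  rw [w.eq_zero] at h3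
  exact lin_ne b h3

end dist

section approx

variable {C : Type u} [Field C]

theorem div_lin_mem {a : C} {y : RatFunc C} (hy : y ∈ (Va a).nonunits) : y / lin a ∈ Va a := by
  by_cases h0 : y = 0
  · rw [h0, zero_div]
    exact zero_mem _
  obtain ⟨n, u, hu, hu', hyu⟩ := Va_dec a y h0
  have hl := lin_ne a
  have hlv : (Va a).valuation (lin a) < 1 := lin_non a
  have hl0 : 0 < (Va a).valuation (lin a) := by
    rw [zero_lt_iff]
    simpa using hl
  have hu0 : u ≠ 0 := by
    rintro rfl
    rw [mul_zero] at hyu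
    exact h0 hyu
  have hvu : (Va a).valuation u = 1 := val_eq_one hu0 hu hu'
  rw [ValuationSubring.mem_nonunits_iff, hyu, map_mul, hvu, mul_one, map_zpow₀] at hy
  have hn : 0 < n := by
    by_contra hn
    push Not at hn
    rcases lt_or_eq_of_le hn with h | h
    · exact absurd hy (not_lt.2 (one_lt_zpow_of_neg₀ hl0 hlv h).le)
    · rw [h, zpow_zero] at hy
      exact lt_irrefl _ hy
  have h1 : y / lin a = lin a ^ (n - 1).toNat * u := by
    have h2 : lin a ^ n = lin a ^ (n - 1).toNat * lin a := by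
      rw [← zpow_natCast, ← zpow_add_one₀ hl]
      congr 1
      omega
    rw [hyu, h2]
    field_simp
  rw [h1]
  exact mul_mem (pow_mem (pl_mem_Va a (X - Polynomial.C a)) _) hu

/-- partial fractions for rational functions with simple poles -/
theorem exists_parfrac [IsAlgClosed C] {g : RatFunc C} {c : C → C}
    (hg : ∀ a, lin a * g - algebraMap C (RatFunc C) (c a) ∈ (Va a).nonunits) :
    ∃ (P : C[X]) (S : Finset C), g = pl P + ∑ a ∈ S, algebraMap C (RatFunc C) (c a) / lin a := by
  classical
  set S : Finset C := g.denom.roots.toFinset with hS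
  have hmem : ∀ a b : C, a ≠ b → algebraMap C (RatFunc C) (c b) / lin b ∈ Va a := by
    intro a b hab
    have : (X - Polynomial.C b).eval a ≠ 0 := by
      simpa [sub_eq_zero] using hab
    rw [← pl_const]
    exact div_mem_Va _ this
  have h1 : ∀ a, g - ∑ b ∈ S, algebraMap C (RatFunc C) (c b) / lin b ∈ Va a := by
    intro a
    by_cases ha : a ∈ S
    · rw [← Finset.add_sum_erase S _ ha, ← sub_sub]
      refine sub_mem ?_ (sum_mem fun b hb => hmem a b (Finset.ne_of_mem_erase hb).symm)
      have h2 := div_lin_mem (hg a)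
      have h3 : (lin a * g - algebraMap C (RatFunc C) (c a)) / lin a =
          g - algebraMap C (RatFunc C) (c a) / lin a := by
        rw [sub_div, mul_div_cancel_left₀ _ (lin_ne a)]
      rwa [h3] at h2
    · refine sub_mem ?_ (sum_mem fun b hb => hmem a b (fun h => ha (h ▸ hb)))
      rw [mem_Va]
      intro h
      apply ha
      rw [hS, Multiset.mem_toFinset, mem_roots (RatFunc.denom_ne_zero g)]
      exact h
  obtain ⟨P, hP⟩ := exists_pl h1
  exact ⟨P, S, by rw [← hP]; ring⟩

theorem natDegree_le_of_mem {P : C[X]} {n : ℕ} (h : (RatFunc.X⁻¹) ^ n * pl P ∈ Vinf C) :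
    P.natDegree ≤ n := by
  by_cases hP : P = 0
  · rw [hP]
    simp
  have h0 : ((RatFunc.X⁻¹) ^ n * pl P : RatFunc C) ≠ 0 :=
    mul_ne_zero (pow_ne_zero _ (inv_ne_zero RatFunc.X_ne_zero)) (pl_ne hP)
  rw [mem_Vinf h0] at h
  have h1 : ((RatFunc.X⁻¹) ^ n * pl P : RatFunc C) = pl P / pl (X ^ n) := by
    rw [inv_pow, div_eq_mul_inv, mul_comm]
    simp [pl]
  rw [h1, intDegree_pl_div hP (pow_ne_zero _ X_ne_zero), natDegree_X_pow] at h
  omega

end approx

section main

variable {C : Type u} [NormedField C]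

/-- the polynomial approximation of `1 / (t - a)` -/
noncomputable def qa (d : ℕ) (a : C) : C[X] :=
  open Classical in if ‖a‖ ≤ 1 then 0 else
    - ∑ k ∈ Finset.range (d + 1), Polynomial.C ((a⁻¹) ^ (k + 1)) * X ^ k

theorem qa_natDegree (d : ℕ) (a : C) : (qa d a).natDegree ≤ d := by
  unfold qa
  split_ifs
  · simp
  · rw [natDegree_neg]
    apply natDegree_sum_le_of_forall_le
    intro k hk
    rw [Finset.mem_range] at hk
    exact (natDegree_C_mul_X_pow_le _ _).trans (by omega)

theorem qa_spec (d : ℕ) {a : C} (ha : ¬ ‖a‖ ≤ 1) :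
    1 / lin a - pl (qa d a) = (RatFunc.X * algebraMap C (RatFunc C) a⁻¹) ^ (d + 1) / lin a := by
  have ha0 : a ≠ 0 := by
    rintro rfl
    simp at ha
  have hl := lin_ne a
  have h1 : lin a * pl (qa d a) = 1 - (RatFunc.X * algebraMap C (RatFunc C) a⁻¹) ^ (d + 1) := by
    have h2 : (X - Polynomial.C a) * qa d a = 1 - (X * Polynomial.C a⁻¹) ^ (d + 1) := by
      unfold qa
      rw [if_neg ha]
      induction d with
      | zero =>
        have : Polynomial.C a * Polynomial.C a⁻¹ = 1 := by
          rw [← Polynomial.C_mul, mul_inv_cancel₀ ha0, Polynomial.C_1]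
        simp only [zero_add, Finset.range_one, Finset.sum_singleton, pow_one, pow_zero, mul_one]
        linear_combination this
      | succ d ih =>
        rw [Finset.sum_range_succ, neg_add, mul_add, ih]
        have : Polynomial.C a * Polynomial.C (a⁻¹ ^ (d + 1 + 1)) = Polynomial.C (a⁻¹ ^ (d + 1)) := by
          rw [← Polynomial.C_mul, pow_succ' a⁻¹ (d + 1), ← mul_assoc, mul_inv_cancel₀ ha0, one_mul]
        simp only [mul_pow, ← Polynomial.C_pow] at this ⊢
        linear_combination X ^ (d + 1) * this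
    have h3 := congrArg pl h2
    have h4 : pl ((X - Polynomial.C a) * qa d a) = lin a * pl (qa d a) := by
      simp [pl, lin]
    have h5 : pl (1 - (X * Polynomial.C a⁻¹) ^ (d + 1)) =
        1 - (RatFunc.X * algebraMap C (RatFunc C) a⁻¹) ^ (d + 1) := by
      rw [← pl_const]
      simp only [pl, map_sub, map_one, map_pow, map_mul, RatFunc.algebraMap_X]
    rw [h4, h5] at h3
    exact h3
  rw [eq_div_iff hl, sub_mul, one_div, inv_mul_cancel₀ hl]
  linear_combination (-1 : RatFunc C) * h1

/-- **rational functions with small simple poles are close to polynomials** -/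
theorem rat_approx [IsAlgClosed C] {g : RatFunc C} {B : ℝ} (hB : 0 ≤ B) {d n : ℕ}
    (h1 : ∀ a : C, ∃ c : C, ‖c‖ ≤ B * max 1 ‖a‖ ^ d ∧
      lin a * g - algebraMap C (RatFunc C) c ∈ (Va a).nonunits)
    (h2 : (RatFunc.X⁻¹) ^ n * g ∈ Vinf C) :
    ∃ P : C[X], P.natDegree ≤ max n d ∧ ∀ w : AbsoluteValue (RatFunc C) ℝ, IsNonarchimedean w →
      (∀ c : C, w (algebraMap C (RatFunc C) c) = ‖c‖) → ∀ ρ : ℝ, 0 < ρ → (∀ a, ρ ≤ w (lin a)) →
      w (g - pl P) ≤ B * max 1 (w RatFunc.X) ^ (d + 1) / ρ := by
  choose c hcB hc using h1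
  obtain ⟨P₀, S, hg⟩ := exists_parfrac hc
  have hdeg : P₀.natDegree ≤ n := by
    apply natDegree_le_of_mem
    have h3 : pl P₀ = g - ∑ a ∈ S, algebraMap C (RatFunc C) (c a) / lin a := by
      rw [hg]
      ring
    rw [h3, mul_sub]
    refine sub_mem h2 (mul_mem (pow_mem ?_ _) (sum_mem fun a _ => ?_))
    · rw [mem_Vinf (inv_ne_zero RatFunc.X_ne_zero), RatFunc.intDegree_inv, RatFunc.intDegree_X]
      norm_num
    · by_cases hca : c a = 0
      · rw [hca, map_zero, zero_div]
        exact zero_mem _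
      · have h4 : algebraMap C (RatFunc C) (c a) ≠ 0 := by simpa using hca
        rw [mem_Vinf (div_ne_zero h4 (lin_ne a)), RatFunc.intDegree_div h4 (lin_ne a),
          RatFunc.algebraMap_eq_C, RatFunc.intDegree_C, lin, RatFunc.intDegree_polynomial]
        simp
  refine ⟨P₀ + ∑ a ∈ S, Polynomial.C (c a) * qa d a, ?_, ?_⟩
  · refine (natDegree_add_le _ _).trans (max_le (hdeg.trans (le_max_left _ _)) ?_)
    refine (natDegree_sum_le_of_forall_le _ _ (n := d) ?_).trans (le_max_right _ _)
    intro a _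
    exact (natDegree_C_mul_le _ _).trans (qa_natDegree d a)
  · intro w hna hw ρ hρ hρa
    have h3 : g - pl (P₀ + ∑ a ∈ S, Polynomial.C (c a) * qa d a) =
        ∑ a ∈ S, algebraMap C (RatFunc C) (c a) * (1 / lin a - pl (qa d a)) := by
      have h4 : pl (P₀ + ∑ a ∈ S, Polynomial.C (c a) * qa d a) =
          pl P₀ + ∑ a ∈ S, algebraMap C (RatFunc C) (c a) * pl (qa d a) := by
        simp only [← pl_const]
        simp [pl]
      rw [h4]
      conv_lhs => rw [hg]
      rw [add_sub_add_left_eq_sub, ← Finset.sum_sub_distrib]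
      refine Finset.sum_congr rfl fun a _ => ?_
      rw [mul_sub, mul_one_div]
    rw [h3]
    have hbound : ∀ a, w (algebraMap C (RatFunc C) (c a) * (1 / lin a - pl (qa d a))) ≤
        B * max 1 (w RatFunc.X) ^ (d + 1) / ρ := by
      intro a
      have hwl : 0 < w (lin a) := lt_of_lt_of_le hρ (hρa a)
      have hmx : 1 ≤ max 1 (w RatFunc.X) ^ (d + 1) := one_le_pow₀ (le_max_left _ _)
      rw [map_mul, hw]
      by_cases ha : ‖a‖ ≤ 1
      · have h5 : qa d a = 0 := by
          unfold qa
          rw [if_pos ha]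
        have h6 : pl (0 : C[X]) = 0 := by simp [pl]
        have h7 := hcB a
        rw [max_eq_left ha, one_pow, mul_one] at h7
        rw [h5, h6, sub_zero, map_div₀, map_one, mul_one_div]
        calc ‖c a‖ / w (lin a) ≤ B / ρ := div_le_div₀ hB h7 hρ (hρa a)
          _ ≤ B * max 1 (w RatFunc.X) ^ (d + 1) / ρ := by
              gcongr
              exact le_mul_of_one_le_right hB hmx
      · rw [qa_spec d ha, map_div₀, map_pow, map_mul, hw, norm_inv]
        push Not at ha
        have h7 := hcB a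
        rw [max_eq_right ha.le] at h7
        have ha0 : 0 < ‖a‖ := lt_trans zero_lt_one ha
        have h8 : ‖c a‖ * ((w RatFunc.X * ‖a‖⁻¹) ^ (d + 1) / w (lin a)) ≤
            (B * ‖a‖ ^ d) * ((w RatFunc.X * ‖a‖⁻¹) ^ (d + 1) / ρ) := by
          have := w.nonneg RatFunc.X
          gcongr
          exact hρa a
        refine h8.trans ?_
        have h9 : (B * ‖a‖ ^ d) * ((w RatFunc.X * ‖a‖⁻¹) ^ (d + 1) / ρ) =
            B * w RatFunc.X ^ (d + 1) / ρ * ‖a‖⁻¹ := by
          rw [mul_pow, pow_succ (‖a‖⁻¹), inv_pow]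
          field_simp
        rw [h9]
        have h10 : ‖a‖⁻¹ ≤ 1 := inv_le_one_of_one_le₀ ha.le
        have := w.nonneg RatFunc.X
        calc B * w RatFunc.X ^ (d + 1) / ρ * ‖a‖⁻¹ ≤ B * w RatFunc.X ^ (d + 1) / ρ :=
              mul_le_of_le_one_right (by positivity) h10
          _ ≤ B * max 1 (w RatFunc.X) ^ (d + 1) / ρ := by
              gcongr
              exact le_max_right _ _
    have hB' : 0 ≤ B * max 1 (w RatFunc.X) ^ (d + 1) / ρ := by positivity
    clear h3 hg
    classical
    induction S using Finset.induction_on with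
    | empty => simpa using hB'
    | insert a S ha ih =>
      rw [Finset.sum_insert ha]
      exact (hna _ _).trans (max_le (hbound a) ih)

end main

end P025H587
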