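import Vale.Agent.P025.R2.H587.Loc

/-!
# The places of the rational function field

Helper file for the Hodge-Tate forms (blueprint (6.1)).
-/

universe u v w

namespace P025H587

open Polynomial

section va

variable {C : Type u} [Field C]

/-- `t - b` -/
noncomputable def lin (b : C) : RatFunc C := algebraMap C[X] (RatFunc C) (X - Polynomial.C b)

theorem lin_ne (b : C) : lin b ≠ 0 := by
  rw [lin]
  exact RatFunc.algebraMap_ne_zero (X_sub_C_ne_zero b)

/-- polynomials as rational functions -/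
noncomputable def pl (P : C[X]) : RatFunc C := algebraMap C[X] (RatFunc C) P

theorem pl_ne {P : C[X]} (hP : P ≠ 0) : pl P ≠ 0 := RatFunc.algebraMap_ne_zero hP

theorem pl_const (c : C) : pl (Polynomial.C c) = algebraMap C (RatFunc C) c := by
  rw [pl, IsScalarTower.algebraMap_apply C C[X] (RatFunc C)]
  rfl

/-- the local ring at `a` -/
noncomputable def Va (a : C) : ValuationSubring (RatFunc C) where
  carrier := {f | f.denom.eval a ≠ 0}
  mul_mem' := by
    intro f g hf hg h
    obtain ⟨q, hq⟩ := RatFunc.denom_mul_dvd f g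
    have := congrArg (Polynomial.eval a) hq
    rw [eval_mul, eval_mul, h, zero_mul] at this
    exact mul_ne_zero hf hg this
  one_mem' := by simp
  add_mem' := by
    intro f g hf hg h
    obtain ⟨q, hq⟩ := RatFunc.denom_add_dvd f g
    have := congrArg (Polynomial.eval a) hq
    rw [eval_mul, eval_mul, h, zero_mul] at this
    exact mul_ne_zero hf hg this
  zero_mem' := by simp
  neg_mem' := by
    intro f hf h
    have h1 : (-f).denom ∣ f.denom := by
      have h2 : f.denom ≠ 0 := RatFunc.denom_ne_zero f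
      rw [RatFunc.denom_dvd h2]
      refine ⟨-f.num, ?_⟩
      rw [map_neg, neg_div, RatFunc.num_div_denom]
    obtain ⟨q, hq⟩ := h1
    have := congrArg (Polynomial.eval a) hq
    rw [eval_mul, h, zero_mul] at this
    exact hf this
  mem_or_inv_mem' := by
    intro f
    by_cases h0 : f = 0
    · left
      rw [h0]
      simp
    by_cases h : f.denom.eval a = 0
    · right
      intro h1
      obtain ⟨q, hq⟩ := RatFunc.denom_inv_dvd h0
      have h2 := congrArg (Polynomial.eval a) hq
      rw [eval_mul, h1, zero_mul] at h2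
      obtain ⟨s, t, hst⟩ := RatFunc.isCoprime_num_denom f
      have h3 := congrArg (Polynomial.eval a) hst
      rw [eval_add, eval_mul, eval_mul, h2, h, mul_zero, mul_zero, add_zero, eval_one] at h3
      exact zero_ne_one h3
    · left
      exact h

theorem mem_Va {a : C} {f : RatFunc C} : f ∈ Va a ↔ f.denom.eval a ≠ 0 := Iff.rfl

theorem pl_mem_Va (a : C) (P : C[X]) : pl P ∈ Va a := by
  rw [mem_Va, pl, RatFunc.denom_algebraMap]
  simp

theorem div_mem_Va {a : C} (P : C[X]) {Q : C[X]} (hQ : Q.eval a ≠ 0) : pl P / pl Q ∈ Va a := by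
  rw [mem_Va]
  intro h
  obtain ⟨q, hq⟩ := RatFunc.denom_div_dvd P Q
  have := congrArg (Polynomial.eval a) hq
  rw [eval_mul] at this
  rw [this] at hQ
  apply hQ
  rw [show Polynomial.eval a (RatFunc.denom ((algebraMap C[X] (RatFunc C)) P /
    (algebraMap C[X] (RatFunc C)) Q)) = 0 from h, zero_mul]

theorem exists_div_of_mem_Va {a : C} {f : RatFunc C} (hf : f ∈ Va a) :
    ∃ P Q : C[X], Q.eval a ≠ 0 ∧ f = pl P / pl Q :=
  ⟨f.num, f.denom, hf, (RatFunc.num_div_denom f).symm⟩

theorem lin_non (a : C) : lin a ∈ (Va a).nonunits := by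
  rw [ValuationSubring.mem_nonunits_iff_or]
  right
  intro h
  obtain ⟨P, Q, hQ, hf⟩ := exists_div_of_mem_Va h
  have hQ0 : Q ≠ 0 := by
    rintro rfl
    simp at hQ
  have h1 : pl Q = pl (P * (X - Polynomial.C a)) := by
    have h2 := lin_ne a
    have h3 := pl_ne hQ0
    have h4 : pl (P * (X - Polynomial.C a)) = pl P * lin a := by
      simp [pl, lin]
    rw [h4]
    field_simp at hf
    linear_combination hf
  have h5 : Q = P * (X - Polynomial.C a) := RatFunc.algebraMap_injective C h1
  apply hQ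
  rw [h5]
  simp

theorem Va_const (a : C) (c : C) : algebraMap C (RatFunc C) c ∈ Va a := by
  rw [← pl_const]
  exact pl_mem_Va a _

theorem Va_res {a : C} {f : RatFunc C} (hf : f ∈ Va a) :
    ∃ c : C, f - algebraMap C (RatFunc C) c ∈ (Va a).nonunits := by
  obtain ⟨P, Q, hQ, rfl⟩ := exists_div_of_mem_Va hf
  have hQ0 : Q ≠ 0 := by
    rintro rfl
    simp at hQ
  refine ⟨P.eval a / Q.eval a, ?_⟩
  have h1 : (X - Polynomial.C a) ∣ (P - Polynomial.C (P.eval a / Q.eval a) * Q) := by
    rw [dvd_iff_isRoot, IsRoot.def, eval_sub, eval_mul, eval_C, div_mul_cancel₀ _ hQ, sub_self]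
  obtain ⟨R, hR⟩ := h1
  have h2 : pl P / pl Q - algebraMap C (RatFunc C) (P.eval a / Q.eval a) =
      lin a * (pl R / pl Q) := by
    rw [← pl_const]
    have h3 := pl_ne hQ0
    have h4 : pl P - pl (Polynomial.C (P.eval a / Q.eval a)) * pl Q = lin a * pl R := by
      have := congrArg pl hR
      simpa [pl, lin] using this
    field_simp
    linear_combination h4
  rw [h2]
  have h5 := lin_non a
  rw [ValuationSubring.mem_nonunits_iff] at h5 ⊢
  rw [map_mul]
  exact mul_lt_one_of_lt_of_le h5 ((ValuationSubring.valuation_le_one_iff _ _).2 (div_mem_Va R hQ))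

theorem pl_dec (a : C) {P : C[X]} (hP : P ≠ 0) :
    ∃ (n : ℕ) (u : RatFunc C), u ∈ Va a ∧ u⁻¹ ∈ Va a ∧ pl P = lin a ^ n * u := by
  obtain ⟨R, hR, hnd⟩ := exists_eq_pow_rootMultiplicity_mul_and_not_dvd P hP a
  have hRa : R.eval a ≠ 0 := by
    intro h
    exact hnd (dvd_iff_isRoot.2 h)
  refine ⟨P.rootMultiplicity a, pl R, pl_mem_Va a R, ?_, ?_⟩
  · have := div_mem_Va (a := a) 1 hRa
    rwa [show pl (1 : C[X]) = 1 by simp [pl], one_div] at this
  · conv_lhs => rw [hR]
    simp [pl, lin]

theorem Va_dec (a : C) (f : RatFunc C) (hf : f ≠ 0) :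
    ∃ n : ℤ, ∃ u ∈ Va a, u⁻¹ ∈ Va a ∧ f = lin a ^ n * u := by
  obtain ⟨n, u, hu, hu', h⟩ := pl_dec a (RatFunc.num_ne_zero hf)
  obtain ⟨m, w, hw, hw', h'⟩ := pl_dec a (RatFunc.denom_ne_zero f)
  refine ⟨(n : ℤ) - m, u * w⁻¹, mul_mem hu hw', ?_, ?_⟩
  · rw [mul_inv, inv_inv]
    exact mul_mem hu' hw
  · have h1 : f = pl f.num / pl f.denom := (RatFunc.num_div_denom f).symm
    have h2 := lin_ne a
    rw [zpow_sub₀ h2, zpow_natCast, zpow_natCast]
    conv_lhs => rw [h1, h, h']
    rw [div_eq_mul_inv, div_eq_mul_inv, mul_inv]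
    ring

/-- an element of all the local rings is a polynomial -/
theorem exists_pl [IsAlgClosed C] {f : RatFunc C} (hf : ∀ a, f ∈ Va a) : ∃ P : C[X], f = pl P := by
  have hd : f.denom.degree = 0 := by
    by_contra h
    obtain ⟨a, ha⟩ := IsAlgClosed.exists_root f.denom h
    exact hf a ha
  have h1 : f.denom = 1 := by
    apply eq_one_of_monic_natDegree_zero (RatFunc.monic_denom f)
    exact natDegree_eq_of_degree_eq_some hd
  refine ⟨f.num, ?_⟩
  conv_lhs => rw [← RatFunc.num_div_denom f, h1, map_one, div_one]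
  rfl

end va

section vinf

variable {C : Type u} [Field C]

open Classical in
/-- the local ring at infinity -/
noncomputable def Vinf (C : Type u) [Field C] : ValuationSubring (RatFunc C) :=
  (RatFunc.inftyValuation C).valuationSubring

theorem mem_Vinf {f : RatFunc C} (hf : f ≠ 0) : f ∈ Vinf C ↔ f.intDegree ≤ 0 := by
  classical
  rw [Vinf, Valuation.mem_valuationSubring_iff]
  simp only [RatFunc.inftyValuation_apply, RatFunc.inftyValuationDef, if_neg hf]
  rw [← WithZero.exp_zero, WithZero.exp_le_exp]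

theorem mem_Vinf_nonunits {f : RatFunc C} (hf : f ≠ 0) :
    f ∈ (Vinf C).nonunits ↔ f.intDegree < 0 := by
  rw [ValuationSubring.mem_nonunits_iff_or, mem_Vinf (inv_ne_zero hf), RatFunc.intDegree_inv]
  simp [hf]

theorem Vinf_const (c : C) : algebraMap C (RatFunc C) c ∈ Vinf C := by
  by_cases hc : c = 0
  · rw [hc, map_zero]
    exact zero_mem _
  · rw [mem_Vinf (by simpa using hc), RatFunc.algebraMap_eq_C, RatFunc.intDegree_C]

theorem intDegree_pl_div {P Q : C[X]} (hP : P ≠ 0) (hQ : Q ≠ 0) :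
    (pl P / pl Q).intDegree = (P.natDegree : ℤ) - Q.natDegree := by
  rw [RatFunc.intDegree_div (pl_ne hP) (pl_ne hQ), pl, pl, RatFunc.intDegree_polynomial,
    RatFunc.intDegree_polynomial]

theorem Vinf_res {f : RatFunc C} (hf : f ∈ Vinf C) :
    ∃ c : C, f - algebraMap C (RatFunc C) c ∈ (Vinf C).nonunits := by
  by_cases h0 : f = 0
  · refine ⟨0, ?_⟩
    rw [h0, map_zero, sub_zero]
    exact zero_mem _
  rw [mem_Vinf h0] at hf
  rcases lt_or_eq_of_le hf with h | h
  · refine ⟨0, ?_⟩
    rw [map_zero, sub_zero, mem_Vinf_nonunits h0]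
    exact h
  · have hP0 := RatFunc.num_ne_zero h0
    have hQ0 := RatFunc.denom_ne_zero f
    have hQm := RatFunc.monic_denom f
    refine ⟨f.num.leadingCoeff, ?_⟩
    set c := f.num.leadingCoeff with hc
    have hc0 : c ≠ 0 := leadingCoeff_ne_zero.2 hP0
    have hdeg : f.num.natDegree = f.denom.natDegree := by
      rw [RatFunc.intDegree] at h
      omega
    have h1 : f - algebraMap C (RatFunc C) c =
        pl (f.num - Polynomial.C c * f.denom) / pl f.denom := by
      have h2 : f = pl f.num / pl f.denom := (RatFunc.num_div_denom f).symm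
      have h3 := pl_ne hQ0
      have h4 : pl (f.num - Polynomial.C c * f.denom) =
          pl f.num - algebraMap C (RatFunc C) c * pl f.denom := by
        rw [← pl_const]
        simp [pl]
      rw [h4, sub_div, mul_div_assoc, div_self h3, mul_one, ← h2]
    rw [h1]
    by_cases h5 : f.num - Polynomial.C c * f.denom = 0
    · rw [h5]
      have : pl (0 : C[X]) = 0 := by simp [pl]
      rw [this, zero_div]
      exact zero_mem _
    · rw [mem_Vinf_nonunits (div_ne_zero (pl_ne h5) (pl_ne hQ0)), intDegree_pl_div h5 hQ0]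
      have h6 : (f.num - Polynomial.C c * f.denom).degree < f.num.degree := by
        apply degree_sub_lt_left
        · rw [degree_C_mul hc0, degree_eq_natDegree hP0, degree_eq_natDegree hQ0, hdeg]
        · exact hP0
        · rw [leadingCoeff_mul, leadingCoeff_C, hQm.leadingCoeff, mul_one]
      have h7 := natDegree_lt_natDegree h5 h6
      omega

theorem Vinf_dec (f : RatFunc C) (hf : f ≠ 0) :
    ∃ n : ℤ, ∃ u ∈ Vinf C, u⁻¹ ∈ Vinf C ∧ f = (RatFunc.X⁻¹) ^ n * u := by
  have hX : (RatFunc.X : RatFunc C) ≠ 0 := RatFunc.X_ne_zero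
  have hXn : ∀ n : ℤ, (RatFunc.X⁻¹ : RatFunc C) ^ n ≠ 0 :=
    fun n => zpow_ne_zero n (inv_ne_zero hX)
  have hdX : ∀ n : ℤ, ((RatFunc.X⁻¹ : RatFunc C) ^ n).intDegree = -n := by
    intro n
    have key : ∀ m : ℕ, ((RatFunc.X : RatFunc C) ^ m).intDegree = m := by
      intro m
      rw [← RatFunc.algebraMap_X, ← map_pow, RatFunc.intDegree_polynomial, natDegree_X_pow]
    obtain ⟨m, rfl | rfl⟩ := n.eq_nat_or_neg
    · rw [inv_zpow, zpow_natCast, RatFunc.intDegree_inv, key]
    · rw [zpow_neg, inv_zpow, inv_inv, zpow_natCast, key, neg_neg]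
  have hu0 : f / (RatFunc.X⁻¹ ^ (-f.intDegree)) ≠ 0 := div_ne_zero hf (hXn _)
  have hud : (f / (RatFunc.X⁻¹ ^ (-f.intDegree))).intDegree = 0 := by
    rw [RatFunc.intDegree_div hf (hXn _), hdX]
    ring
  refine ⟨- f.intDegree, f / (RatFunc.X⁻¹) ^ (-f.intDegree), ?_, ?_, ?_⟩
  · rw [mem_Vinf hu0, hud]
  · rw [mem_Vinf (inv_ne_zero hu0), RatFunc.intDegree_inv, hud, neg_zero]
  · rw [mul_div_cancel₀ _ (hXn _)]

end vinf

section ldf

variable {C : Type u} {K : Type v} [Field C] [Field K] [Algebra C K] [Algebra (RatFunc C) K]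
  [IsScalarTower C (RatFunc C) K]

/-- bounded logarithmic derivatives on `C(t)` -/
theorem ld_of_lin [IsAlgClosed C] (V : ValuationSubring (RatFunc C)) (δ : Derivation C K K)
    (h : ∀ b : C, ∃ v ∈ V, δ (algebraMap (RatFunc C) K (lin b)) =
      algebraMap (RatFunc C) K (v * lin b)) (a : RatFunc C) (ha : a ≠ 0) :
    ∃ v ∈ V, δ (algebraMap (RatFunc C) K a) = algebraMap (RatFunc C) K (v * a) := by
  have hmul : ∀ a b : RatFunc C,
      (∃ v ∈ V, δ (algebraMap (RatFunc C) K a) = algebraMap (RatFunc C) K (v * a)) →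
      (∃ v ∈ V, δ (algebraMap (RatFunc C) K b) = algebraMap (RatFunc C) K (v * b)) →
      (∃ v ∈ V, δ (algebraMap (RatFunc C) K (a * b)) = algebraMap (RatFunc C) K (v * (a * b))) := by
    rintro a b ⟨v, hv, hva⟩ ⟨w, hw, hwb⟩
    refine ⟨v + w, add_mem hv hw, ?_⟩
    rw [map_mul, Derivation.leibniz, hva, hwb]
    simp only [smul_eq_mul, map_mul, map_add]
    ring
  have hconst : ∀ c : C, ∃ v ∈ V, δ (algebraMap (RatFunc C) K (algebraMap C (RatFunc C) c)) =
      algebraMap (RatFunc C) K (v * algebraMap C (RatFunc C) c) := by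
    intro c
    refine ⟨0, zero_mem _, ?_⟩
    rw [← IsScalarTower.algebraMap_apply C (RatFunc C) K, Derivation.map_algebraMap, zero_mul,
      map_zero]
  have hpoly : ∀ P : C[X], P ≠ 0 →
      ∃ v ∈ V, δ (algebraMap (RatFunc C) K (pl P)) = algebraMap (RatFunc C) K (v * pl P) := by
    intro P hP
    have hsp := (IsAlgClosed.splits P).eq_prod_roots
    have hpr : ∀ s : Multiset C, ∃ v ∈ V,
        δ (algebraMap (RatFunc C) K (pl (s.map (fun a => X - Polynomial.C a)).prod)) =
        algebraMap (RatFunc C) K (v * pl (s.map (fun a => X - Polynomial.C a)).prod) := by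
      intro s
      induction s using Multiset.induction_on with
      | empty =>
        have := hconst 1
        simpa [pl] using this
      | cons b s ih =>
        rw [Multiset.map_cons, Multiset.prod_cons]
        have h1 := hmul _ _ (h b) ih
        simpa [pl, lin] using h1
    rw [hsp]
    have h2 := hmul _ _ (hconst P.leadingCoeff) (hpr P.roots)
    rw [← pl_const] at h2
    simpa [pl] using h2
  obtain ⟨v, hv, hva⟩ := hpoly _ (RatFunc.num_ne_zero ha)
  obtain ⟨w, hw, hwb⟩ := hpoly _ (RatFunc.denom_ne_zero a)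
  refine ⟨v - w, sub_mem hv hw, ?_⟩
  have h1 : a = pl a.num / pl a.denom := (RatFunc.num_div_denom a).symm
  have hn : algebraMap (RatFunc C) K (pl a.num) ≠ 0 := by
    simpa using pl_ne (RatFunc.num_ne_zero ha)
  have hd : algebraMap (RatFunc C) K (pl a.denom) ≠ 0 := by
    simpa using pl_ne (RatFunc.denom_ne_zero a)
  have h2 := ld_div δ hn hd
  rw [← map_div₀, ← h1, hva, hwb, map_mul, map_mul, mul_div_assoc, mul_div_assoc, div_self hn,
    div_self hd, mul_one, mul_one] at h2
  have ha' : algebraMap (RatFunc C) K a ≠ 0 := by simpa using ha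
  rw [div_eq_iff ha'] at h2
  rw [h2, map_mul, map_sub]

end ldf

end P025H587
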