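import Vale.Agent.P025.R2.H587.Nm

/-! # G-HT (blueprint (6.1)), all proved: `exists_isTheta` (Main), `exists_isNm`,
`theta_unique`, `IsTheta.unique`, `IsTheta.smul`, `IsTheta.mul`, `IsTheta.zpow`,
`IsTheta.of_pow`, `exists_ld_bound`, `exists_ext_abs` (Nm). -/

universe u v

namespace P025H587

variable {C : Type u} [NontriviallyNormedField C]
variable {K : Type v} [Field K] [Algebra C K]

/-- version with natural exponents -/
theorem IsTheta.of_pow_zmod {p : ℕ} (h1 : ‖(p : C)‖ < 1) [IsUltrametricDist C]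
    {D : Derivation C K K} {f : ℕ → K} {θ : K} (hf : ∀ m, f m ≠ 0)
    (h : IsTheta p D f θ) (a : ℤ) (e : ℕ → ℕ) (he : ∀ m, ((e m : ℤ) : ZMod (p ^ m)) = a) :
    IsTheta p D (fun m => f m ^ e m) ((a : K) * θ) := by
  have h2 := h.of_pow h1 hf a (fun m => (e m : ℤ)) (fun m => by
    have h3 := (ZMod.intCast_eq_intCast_iff_dvd_sub a (e m : ℤ) (p ^ m)).1 (he m).symm
    rwa [Nat.cast_pow] at h3)
  simpa only [zpow_natCast] using h2

end P025H587
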