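import Vale.Agent.P025.R2.H587.PlLoc

/-!
# Residues of traces

Helper file for the Hodge-Tate forms (blueprint (6.1)).
-/

universe u v w

namespace P025H587

open Polynomial

section res

variable {C : Type w} {F : Type u} {K : Type v} [NormedField C] [IsUltrametricDist C]
  [Field F] [Field K] [Algebra C F] [Algebra C K] [Algebra F K] [IsScalarTower C F K]
  {V : ValuationSubring F} {x : F} {δ : Derivation C K K}

/-- the trace of `b * dlog f` has a small residue -/
theorem Loc.trace_res [IsAlgClosed C] [CharZero C] [CharZero F] [FiniteDimensional F K]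
    (hL : Loc V x δ) {q : ℕ} (hq : q ≠ 0) {b f : K} (hb : VInt V b) (hf : f ≠ 0)
    (hfg : ∀ O : ValuationSubring K, Ov V O → ∃ g, O.valuation f = O.valuation g ^ q)
    {B : ℝ} (hB : 0 ≤ B)
    (hBb : ∀ O : ValuationSubring K, Ov V O → ∀ β : C, b - algebraMap C K β ∈ O.nonunits → ‖β‖ ≤ B) :
    ∃ c : C, ‖c‖ ≤ B * (‖(q : C)‖ / ‖((Module.finrank F K).factorial : C)‖) ∧
      Algebra.trace F K (b * (δ f / f)) - algebraMap C F c ∈ V.nonunits := by
  obtain ⟨O', hO'⟩ := exists_Ov (K := AlgebraicClosure K) V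
  have hσ : ∀ σ : K →ₐ[F] AlgebraicClosure K, Ov V (O'.comap (σ : K →+* AlgebraicClosure K)) := by
    intro σ
    apply ValuationSubring.ext
    intro a
    rw [ValuationSubring.mem_comap, ValuationSubring.mem_comap, ← hO'.mem]
    simp
  have hnon : ∀ (σ : K →ₐ[F] AlgebraicClosure K) (y : K),
      y ∈ (O'.comap (σ : K →+* AlgebraicClosure K)).nonunits → σ y ∈ O'.nonunits := by
    intro σ y hy
    rw [ValuationSubring.mem_nonunits_iff_or] at hy ⊢
    rcases hy with h | h
    · left
      rw [h, map_zero]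
    · right
      intro h1
      apply h
      rw [ValuationSubring.mem_comap]
      have : (σ : K →+* AlgebraicClosure K) y⁻¹ = (σ y)⁻¹ := map_inv₀ σ y
      rw [this]
      exact h1
  choose β hβ using fun σ => hL.exists_res (hσ σ) (hb _ (hσ σ))
  choose g hg using fun σ => hfg _ (hσ σ)
  choose k hk using fun σ => hL.ld_res_div (hσ σ) hf hq (hg σ)
  set M : ℕ := (Module.finrank F K).factorial with hM
  have hM0 : (M : C) ≠ 0 := by
    rw [Nat.cast_ne_zero]
    exact Nat.factorial_ne_zero _
  refine ⟨∑ σ, β σ * ((q : C) * ((k σ : C) / (M : C))), ?_, ?_⟩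
  · apply IsUltrametricDist.norm_sum_le_of_forall_le_of_nonneg
    · positivity
    · intro σ _
      rw [norm_mul, norm_mul, norm_div]
      have h1 := hBb _ (hσ σ) (β σ) (hβ σ)
      have h2 : ‖((k σ : ℤ) : C)‖ ≤ 1 := IsUltrametricDist.norm_intCast_le_one C (k σ)
      have h3 : ‖(q : C)‖ * (‖((k σ : ℤ) : C)‖ / ‖(M : C)‖) ≤ ‖(q : C)‖ / ‖(M : C)‖ := by
        rw [← mul_div_assoc]
        gcongr
        exact mul_le_of_le_one_right (norm_nonneg _) h2
      exact mul_le_mul h1 h3 (by positivity) hB
  · rw [← hO'.non, map_sub, trace_eq_sum_embeddings (AlgebraicClosure K),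
      ← IsScalarTower.algebraMap_apply C F (AlgebraicClosure K), map_sum, ← Finset.sum_sub_distrib]
    refine sum_mem fun σ _ => ?_
    have hc : ∀ c : C, algebraMap C (AlgebraicClosure K) c = σ (algebraMap C K c) := by
      intro c
      rw [IsScalarTower.algebraMap_apply C F K, σ.commutes,
        ← IsScalarTower.algebraMap_apply C F (AlgebraicClosure K)]
    rw [hc, ← map_sub]
    apply hnon
    set O := O'.comap (σ : K →+* AlgebraicClosure K) with hO
    have h1 : b * (δ f / f) - algebraMap C K (β σ * ((q : C) * ((k σ : C) / (M : C)))) =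
        (b - algebraMap C K (β σ)) * (δ f / f) +
        algebraMap C K (β σ) * (δ f / f - algebraMap C K ((q : C) * ((k σ : C) / (M : C)))) := by
      rw [map_mul]
      ring
    rw [h1]
    refine add_mem ?_ ?_
    · have h2 := hβ σ
      rw [ValuationSubring.mem_nonunits_iff] at h2 ⊢
      rw [map_mul]
      exact mul_lt_one_of_lt_of_le h2 ((O.valuation_le_one_iff _).2 (hL.ld_VInt hf O (hσ σ)))
    · have h2 := hk σ
      rw [ValuationSubring.mem_nonunits_iff] at h2 ⊢
      rw [map_mul, mul_comm]
      exact mul_lt_one_of_lt_of_le h2 ((O.valuation_le_one_iff _).2 (hL.const_mem (hσ σ) _))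

end res

section beta

variable {C : Type u} {K : Type v} [NormedField C] [IsUltrametricDist C] [Field K]
  [Algebra C K] [Algebra (RatFunc C) K] [IsScalarTower C (RatFunc C) K]

omit [IsUltrametricDist C] in
theorem norm_eval_le (P : C[X]) : ∃ A : ℝ, 0 ≤ A ∧ ∀ (d : ℕ), P.natDegree ≤ d →
    ∀ a : C, ‖P.eval a‖ ≤ A * max 1 ‖a‖ ^ d := by
  refine ⟨∑ i ∈ Finset.range (P.natDegree + 1), ‖P.coeff i‖, by positivity, ?_⟩
  intro d hd a
  rw [eval_eq_sum_range, Finset.sum_mul]
  refine (norm_sum_le _ _).trans (Finset.sum_le_sum fun i hi => ?_)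
  rw [norm_mul, norm_pow]
  have h1 : ‖a‖ ^ i ≤ max 1 ‖a‖ ^ d := by
    calc ‖a‖ ^ i ≤ max 1 ‖a‖ ^ i := by
          gcongr
          exact le_max_right _ _
      _ ≤ max 1 ‖a‖ ^ d := by
          apply pow_le_pow_right₀ (le_max_left _ _)
          rw [Finset.mem_range] at hi
          omega
  gcongr

omit [IsUltrametricDist C] in
/-- evaluation of polynomials at a place over `a` -/
theorem pl_sub_eval {a : C} (P : C[X]) :
    pl P - algebraMap C (RatFunc C) (P.eval a) ∈ (Va a).nonunits := by
  have h1 : (X - Polynomial.C a) ∣ (P - Polynomial.C (P.eval a)) := by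
    rw [dvd_iff_isRoot, IsRoot.def, eval_sub, eval_C, sub_self]
  obtain ⟨R, hR⟩ := h1
  have h2 : pl P - algebraMap C (RatFunc C) (P.eval a) = lin a * pl R := by
    rw [← pl_const]
    have := congrArg pl hR
    simpa [pl, lin] using this
  rw [h2]
  have h5 := lin_non a
  rw [ValuationSubring.mem_nonunits_iff] at h5 ⊢
  rw [map_mul]
  exact mul_lt_one_of_lt_of_le h5 ((ValuationSubring.valuation_le_one_iff _ _).2 (pl_mem_Va a R))

/-- the ring homomorphism `C[t] → K` -/
noncomputable def phi (C : Type u) (K : Type v) [Field C] [Field K] [Algebra (RatFunc C) K] :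
    C[X] →+* K :=
  (algebraMap (RatFunc C) K).comp (algebraMap C[X] (RatFunc C))

/-- residues of elements integral over `C[t]` -/
theorem norm_residue_le {b : K} {Q : C[X][X]} (hQ : Q.Monic) (hb : Q.eval₂ (phi C K) b = 0)
    {a : C} {O : ValuationSubring K} (hO : Ov (Va a) O) {β : C}
    (hβ : b - algebraMap C K β ∈ O.nonunits) {B : ℝ} (hB1 : 1 ≤ B)
    (hB : ∀ i, ‖(Q.coeff i).eval a‖ ≤ B) : ‖β‖ ≤ B := by
  have hconst : ∀ c : C, algebraMap C K c ∈ O := by
    intro c
    rw [IsScalarTower.algebraMap_apply C (RatFunc C) K]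
    exact hO.mem.2 (Va_const a c)
  have hbO : b ∈ O := by
    have : b = (b - algebraMap C K β) + algebraMap C K β := by ring
    rw [this]
    exact add_mem (ValuationSubring.nonunits_le hβ) (hconst β)
  have hnm : ∀ y z : K, y ∈ O.nonunits → z ∈ O → y * z ∈ O.nonunits := by
    intro y z hy hz
    rw [ValuationSubring.mem_nonunits_iff] at hy ⊢
    rw [map_mul]
    exact mul_lt_one_of_lt_of_le hy ((O.valuation_le_one_iff _).2 hz)
  -- powers
  have hpow : ∀ i : ℕ, b ^ i - algebraMap C K (β ^ i) ∈ O.nonunits := by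
    intro i
    induction i with
    | zero =>
      rw [pow_zero, pow_zero, map_one, sub_self]
      exact zero_mem _
    | succ i ih =>
      have h1 : b ^ (i + 1) - algebraMap C K (β ^ (i + 1)) =
          (b ^ i - algebraMap C K (β ^ i)) * b +
          (b - algebraMap C K β) * algebraMap C K (β ^ i) := by
        simp only [map_pow]
        ring
      rw [h1]
      exact add_mem (hnm _ _ ih hbO) (hnm _ _ hβ (hconst _))
  have hterm : ∀ i : ℕ, phi C K (Q.coeff i) * b ^ i -
      algebraMap C K ((Q.coeff i).eval a * β ^ i) ∈ O.nonunits := by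
    intro i
    have h2 : phi C K (Q.coeff i) - algebraMap C K ((Q.coeff i).eval a) ∈ O.nonunits := by
      have h3 := hO.non.2 (pl_sub_eval (a := a) (Q.coeff i))
      rw [map_sub, ← IsScalarTower.algebraMap_apply C (RatFunc C) K] at h3
      exact h3
    have h1 : phi C K (Q.coeff i) * b ^ i - algebraMap C K ((Q.coeff i).eval a * β ^ i) =
        (phi C K (Q.coeff i) - algebraMap C K ((Q.coeff i).eval a)) * b ^ i +
        (b ^ i - algebraMap C K (β ^ i)) * algebraMap C K ((Q.coeff i).eval a) := by
      rw [map_mul]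
      ring
    rw [h1]
    exact add_mem (hnm _ _ h2 (pow_mem hbO i)) (hnm _ _ (hpow i) (hconst _))
  have hsum : ∑ i ∈ Finset.range (Q.natDegree + 1), (Q.coeff i).eval a * β ^ i = 0 := by
    by_contra h0
    have h1 : algebraMap C K (∑ i ∈ Finset.range (Q.natDegree + 1), (Q.coeff i).eval a * β ^ i) ∈
        O.nonunits := by
      have h2 : algebraMap C K (∑ i ∈ Finset.range (Q.natDegree + 1),
          (Q.coeff i).eval a * β ^ i) = - ∑ i ∈ Finset.range (Q.natDegree + 1),
          (phi C K (Q.coeff i) * b ^ i - algebraMap C K ((Q.coeff i).eval a * β ^ i)) := by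
        rw [Finset.sum_sub_distrib]
        rw [eval₂_eq_sum_range] at hb
        rw [hb, map_sum]
        ring
      rw [h2]
      exact neg_mem (sum_mem fun i _ => hterm i)
    rw [ValuationSubring.mem_nonunits_iff_or] at h1
    rcases h1 with h1 | h1
    · rw [map_eq_zero] at h1
      exact h0 h1
    · apply h1
      rw [← map_inv₀]
      exact hconst _
  by_contra hlt
  push Not at hlt
  have hβ1 : 1 < ‖β‖ := lt_of_le_of_lt hB1 hlt
  rw [Finset.sum_range_succ, show Q.coeff Q.natDegree = 1 from hQ, eval_one, one_mul] at hsum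
  by_cases hn : Q.natDegree = 0
  · rw [hn] at hsum
    simp at hsum
  · have h1 : β ^ Q.natDegree = - ∑ i ∈ Finset.range Q.natDegree, (Q.coeff i).eval a * β ^ i := by
      linear_combination hsum
    have h2 : ‖β ^ Q.natDegree‖ ≤ B * ‖β‖ ^ (Q.natDegree - 1) := by
      rw [h1, norm_neg]
      apply IsUltrametricDist.norm_sum_le_of_forall_le_of_nonneg
      · positivity
      · intro i hi
        rw [norm_mul, norm_pow]
        rw [Finset.mem_range] at hi
        have h3 : ‖β‖ ^ i ≤ ‖β‖ ^ (Q.natDegree - 1) := pow_le_pow_right₀ hβ1.le (by omega)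
        exact mul_le_mul (hB i) h3 (by positivity) (by linarith)
    obtain ⟨m, hm⟩ := Nat.exists_eq_succ_of_ne_zero hn
    rw [hm, norm_pow] at h2
    simp only [Nat.succ_eq_add_one, Nat.add_sub_cancel] at h2
    rw [pow_succ, mul_comm] at h2
    have h4 : 0 < ‖β‖ ^ m := by positivity
    have h5 := le_of_mul_le_mul_right h2 h4
    linarith

end beta

end P025H587
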