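import Mathlib

/-!
# Valuation subrings over a given one, bounded denominators

Helper file for the Hodge-Tate forms (blueprint (6.1)).
-/

universe u v w

namespace P025H587

open Polynomial

section defs

variable {F : Type u} {K : Type v} [Field F] [Field K] [Algebra F K]

/-- the valuation subring `O` of `K` lies over the valuation subring `V` of `F` -/
def Ov (V : ValuationSubring F) (O : ValuationSubring K) : Prop :=
  O.comap (algebraMap F K) = V

/-- `x` belongs to all the valuation subrings over `V` -/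
def VInt (V : ValuationSubring F) (x : K) : Prop := ∀ O : ValuationSubring K, Ov V O → x ∈ O

theorem Ov.mem {V : ValuationSubring F} {O : ValuationSubring K} (h : Ov V O) {a : F} :
    algebraMap F K a ∈ O ↔ a ∈ V := by
  rw [← h, ValuationSubring.mem_comap]

theorem exists_Ov (V : ValuationSubring F) : ∃ O : ValuationSubring K, Ov V O := by
  obtain ⟨A, hA, hloc⟩ := IsLocalRing.exists_factor_valuationRing
    (((algebraMap F K).comp V.subtype))
  refine ⟨A, ?_⟩
  apply ValuationSubring.ext
  intro x
  rw [ValuationSubring.mem_comap]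
  constructor
  · intro hx
    by_contra hxV
    have hx0 : x ≠ 0 := by
      rintro rfl
      exact hxV V.zero_mem
    have hi : x⁻¹ ∈ V := (V.mem_or_inv_mem x).resolve_left hxV
    have hu : IsUnit ((((algebraMap F K).comp V.subtype).codRestrict A.toSubring hA)
        (⟨x⁻¹, hi⟩ : V)) := by
      rw [isUnit_iff_exists_inv]
      refine ⟨⟨algebraMap F K x, hx⟩, ?_⟩
      apply Subtype.ext
      simp [hx0]
    have hu' := hloc.map_nonunit _ hu
    obtain ⟨b, hb⟩ := isUnit_iff_exists_inv.1 hu'
    have hb' : x⁻¹ * (b : F) = 1 := congrArg Subtype.val hb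
    have : (b : F) = x := by
      field_simp at hb'
      exact hb'
    exact hxV (this ▸ b.2)
  · intro hx
    exact hA ⟨x, hx⟩

namespace VInt

variable {V : ValuationSubring F}

theorem add {x y : K} (hx : VInt V x) (hy : VInt V y) : VInt V (x + y) :=
  fun O hO => O.add_mem _ _ (hx O hO) (hy O hO)

theorem mul {x y : K} (hx : VInt V x) (hy : VInt V y) : VInt V (x * y) :=
  fun O hO => O.mul_mem _ _ (hx O hO) (hy O hO)

theorem neg {x : K} (hx : VInt V x) : VInt V (-x) :=
  fun O hO => O.neg_mem _ (hx O hO)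

theorem sub {x y : K} (hx : VInt V x) (hy : VInt V y) : VInt V (x - y) := by
  rw [sub_eq_add_neg]
  exact hx.add hy.neg

theorem coe {a : F} (ha : a ∈ V) : VInt V (algebraMap F K a) :=
  fun _ hO => hO.mem.2 ha

theorem smul {a : F} {x : K} (ha : a ∈ V) (hx : VInt V x) : VInt V (a • x) := by
  rw [Algebra.smul_def]
  exact (coe ha).mul hx

theorem sum {ι : Type*} (s : Finset ι) {f : ι → K} (h : ∀ i ∈ s, VInt V (f i)) :
    VInt V (∑ i ∈ s, f i) :=
  fun O hO => sum_mem (S := O.toSubring.toAddSubgroup) fun i hi => h i hi O hO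

end VInt

end defs

section alg

variable {F : Type u} {K : Type v} [Field F] [Field K] [Algebra F K] [Algebra.IsAlgebraic F K]

/-- a primitive polynomial over `V` vanishing at `z` -/
theorem exists_prim (V : ValuationSubring F) (z : K) :
    ∃ P : F[X], aeval z P = 0 ∧ (∀ i, P.coeff i ∈ V) ∧ (∃ i, P.coeff i = 1) := by
  have hz : IsIntegral F z := Algebra.IsIntegral.isIntegral z
  set Q := minpoly F z with hQ
  have hQ0 : Q ≠ 0 := minpoly.ne_zero hz
  obtain ⟨i, hi, hmax⟩ := Finset.exists_max_image Q.support (fun i => V.valuation (Q.coeff i))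
    (Polynomial.support_nonempty.2 hQ0)
  have hi0 : Q.coeff i ≠ 0 := by simpa using hi
  refine ⟨C (Q.coeff i)⁻¹ * Q, ?_, ?_, i, ?_⟩
  · rw [map_mul, minpoly.aeval, mul_zero]
  · intro j
    rw [coeff_C_mul]
    by_cases hj : j ∈ Q.support
    · rw [← ValuationSubring.valuation_le_one_iff, map_mul, map_inv₀]
      have h0 : V.valuation (Q.coeff i) ≠ 0 := by simpa using hi0
      calc (V.valuation (Q.coeff i))⁻¹ * V.valuation (Q.coeff j)
          ≤ (V.valuation (Q.coeff i))⁻¹ * V.valuation (Q.coeff i) := by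
            gcongr
            exact hmax j hj
        _ = 1 := inv_mul_cancel₀ h0
    · have : Q.coeff j = 0 := by simpa using hj
      rw [this, mul_zero]
      exact V.zero_mem
  · rw [coeff_C_mul, inv_mul_cancel₀ hi0]

/-- the partial sums of a polynomial -/
noncomputable def ps (P : F[X]) (z : K) (k : ℕ) : K := aeval z (divX^[k] P)

omit [Algebra.IsAlgebraic F K] in
theorem coeff_iter (P : F[X]) (k i : ℕ) : (divX^[k] P).coeff i = P.coeff (i + k) := by
  induction k generalizing i with
  | zero => simp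
  | succ k ih =>
    rw [Function.iterate_succ_apply', coeff_divX, ih]
    congr 1
    ring

omit [Algebra.IsAlgebraic F K] in
theorem ps_step (P : F[X]) (z : K) (k : ℕ) :
    ps P z k = ps P z (k + 1) * z + algebraMap F K (P.coeff k) := by
  unfold ps
  rw [Function.iterate_succ_apply']
  conv_lhs => rw [← divX_mul_X_add (divX^[k] P)]
  rw [map_add, map_mul, aeval_X, aeval_C, coeff_iter, zero_add]

omit [Algebra.IsAlgebraic F K] in
theorem ps_zero {P : F[X]} {z : K} (hz : aeval z P = 0) : ps P z 0 = 0 := by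
  simpa [ps] using hz

omit [Algebra.IsAlgebraic F K] in
theorem aeval_mem {V : ValuationSubring F} {O : ValuationSubring K} (hO : Ov V O) {z : K}
    (hz : z ∈ O) {P : F[X]} (hP : ∀ i, P.coeff i ∈ V) : aeval z P ∈ O := by
  rw [aeval_eq_sum_range]
  refine sum_mem (S := O.toSubring.toAddSubgroup) fun i _ => ?_
  show _ ∈ O
  rw [Algebra.smul_def]
  exact O.mul_mem _ _ (hO.mem.2 (hP i)) (pow_mem hz i)

omit [Algebra.IsAlgebraic F K] in
/-- the partial sums of a polynomial relation are integral -/
theorem ps_mem {P : F[X]} {V : ValuationSubring F} {z : K} (hz : aeval z P = 0)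
    (hP : ∀ i, P.coeff i ∈ V) (k : ℕ) :
    VInt V (ps P z k) ∧ VInt V (ps P z k * z) := by
  suffices h : ∀ O : ValuationSubring K, Ov V O → ps P z k ∈ O ∧ ps P z k * z ∈ O from
    ⟨fun O hO => (h O hO).1, fun O hO => (h O hO).2⟩
  intro O hO
  by_cases hzO : z ∈ O
  · have h1 : ps P z k ∈ O := by
      unfold ps
      refine aeval_mem hO hzO fun i => ?_
      rw [coeff_iter]
      exact hP _
    exact ⟨h1, O.mul_mem _ _ h1 hzO⟩
  · have hi : z⁻¹ ∈ O := (O.mem_or_inv_mem z).resolve_left hzO
    have hz0 : z ≠ 0 := by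
      rintro rfl
      exact hzO O.zero_mem
    induction k with
    | zero =>
      rw [ps_zero hz, zero_mul]
      exact ⟨O.zero_mem, O.zero_mem⟩
    | succ k ih =>
      have h2 : ps P z (k + 1) * z ∈ O := by
        have := ps_step P z k
        have h3 : ps P z (k + 1) * z = ps P z k - algebraMap F K (P.coeff k) := by
          rw [this]; ring
        rw [h3]
        exact sub_mem ih.1 (hO.mem.2 (hP k))
      refine ⟨?_, h2⟩
      have := O.mul_mem _ _ h2 hi
      rwa [mul_assoc, mul_inv_cancel₀ hz0, mul_one] at this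

/-- an element of `O` is a fraction of integral elements, with unit denominator -/
theorem exists_frac (V : ValuationSubring F) {O : ValuationSubring K} {z : K}
    (hz : z ∈ O) : ∃ b s : K, VInt V b ∧ VInt V s ∧ s⁻¹ ∈ O ∧ s ≠ 0 ∧ b = s * z := by
  obtain ⟨P, hPz, hP, k, hk⟩ := exists_prim V z
  suffices h : ∃ j, ps P z j ≠ 0 ∧ (ps P z j)⁻¹ ∈ O by
    obtain ⟨j, hj0, hj⟩ := h
    exact ⟨ps P z j * z, ps P z j, (ps_mem hPz hP j).2, (ps_mem hPz hP j).1, hj, hj0, rfl⟩
  by_contra hcon
  push Not at hcon
  have hnon : ∀ j, ps P z j ∈ O.nonunits := by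
    intro j
    rw [ValuationSubring.mem_nonunits_iff_or]
    by_cases h : ps P z j = 0
    · exact Or.inl h
    · exact Or.inr (hcon j h)
  have h1 := ps_step P z k
  rw [hk, map_one] at h1
  have h2 : (1 : K) = ps P z k - ps P z (k + 1) * z := by
    rw [h1]; ring
  have h3 : (1 : K) ∈ O.nonunits := by
    rw [h2]
    refine sub_mem (hnon k) ?_
    have := hnon (k + 1)
    rw [ValuationSubring.mem_nonunits_iff] at this ⊢
    rw [map_mul]
    exact mul_lt_one_of_lt_of_le this ((O.valuation_le_one_iff z).2 hz)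
  rw [ValuationSubring.mem_nonunits_iff, map_one] at h3
  exact lt_irrefl _ h3

/-- denominators: a nonzero multiple of `x` is integral -/
theorem exists_mul_VInt (V : ValuationSubring F) (x : K) :
    ∃ v : F, v ∈ V ∧ v ≠ 0 ∧ VInt V (v • x) := by
  have hz : IsIntegral F x := Algebra.IsIntegral.isIntegral x
  set Q := minpoly F x with hQ
  have hQ0 : Q ≠ 0 := minpoly.ne_zero hz
  obtain ⟨i, hi, hmax⟩ := Finset.exists_max_image Q.support (fun i => V.valuation (Q.coeff i))
    (Polynomial.support_nonempty.2 hQ0)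
  have hi0 : Q.coeff i ≠ 0 := by simpa using hi
  have hmon : Q.coeff Q.natDegree = 1 := (minpoly.monic hz)
  have hmem : ∀ j, (Q.coeff i)⁻¹ * Q.coeff j ∈ V := by
    intro j
    by_cases hj : j ∈ Q.support
    · rw [← ValuationSubring.valuation_le_one_iff, map_mul, map_inv₀]
      have h0 : V.valuation (Q.coeff i) ≠ 0 := by simpa using hi0
      calc (V.valuation (Q.coeff i))⁻¹ * V.valuation (Q.coeff j)
          ≤ (V.valuation (Q.coeff i))⁻¹ * V.valuation (Q.coeff i) := by
            gcongr
            exact hmax j hj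
        _ = 1 := inv_mul_cancel₀ h0
    · have : Q.coeff j = 0 := by simpa using hj
      rw [this, mul_zero]
      exact V.zero_mem
  refine ⟨(Q.coeff i)⁻¹, ?_, inv_ne_zero hi0, ?_⟩
  · have := hmem Q.natDegree
    rwa [hmon, mul_one] at this
  · have hP0 : aeval x (C (Q.coeff i)⁻¹ * Q) = 0 := by
      rw [map_mul, minpoly.aeval, mul_zero]
    have hP : ∀ j, (C (Q.coeff i)⁻¹ * Q).coeff j ∈ V := by
      intro j
      rw [coeff_C_mul]
      exact hmem j
    have h1 := (ps_mem hP0 hP Q.natDegree).2
    have h2 : ps (C (Q.coeff i)⁻¹ * Q) x Q.natDegree = algebraMap F K (Q.coeff i)⁻¹ := by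
      have h3 : divX^[Q.natDegree] (C (Q.coeff i)⁻¹ * Q) = C (Q.coeff i)⁻¹ := by
        ext j
        rw [coeff_iter, coeff_C_mul, coeff_C]
        split_ifs with hj
        · subst hj
          rw [zero_add, hmon, mul_one]
        · rw [coeff_eq_zero_of_natDegree_lt (p := Q) (n := j + Q.natDegree) (by omega), mul_zero]
      rw [ps, h3, aeval_C]
    rwa [h2, ← Algebra.smul_def] at h1

theorem exists_mul_VInt_fin (V : ValuationSubring F) {ι : Type*} [Finite ι] (x : ι → K) :
    ∃ v : F, v ∈ V ∧ v ≠ 0 ∧ ∀ i, VInt V (v • x i) := by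
  classical
  have := Fintype.ofFinite ι
  choose v hv hv0 hvx using fun i => exists_mul_VInt V (x i)
  refine ⟨∏ i, v i, prod_mem fun i _ => hv i, Finset.prod_ne_zero_iff.2 fun i _ => hv0 i, ?_⟩
  intro i
  rw [← Finset.mul_prod_erase Finset.univ v (Finset.mem_univ i), mul_comm, mul_smul]
  exact (hvx i).smul (prod_mem fun j _ => hv j)

end alg

section fin

variable {F : Type u} {K : Type v} [Field F] [Field K] [Algebra F K] [FiniteDimensional F K]

/-- traces of integral elements -/
theorem trace_mem [CharZero F] {V : ValuationSubring F} {x : K} (hx : VInt V x) :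
    Algebra.trace F K x ∈ V := by
  obtain ⟨O', hO'⟩ := exists_Ov (K := AlgebraicClosure K) V
  rw [← hO'.mem, trace_eq_sum_embeddings (AlgebraicClosure K)]
  refine sum_mem (S := O'.toSubring.toAddSubgroup) fun σ _ => ?_
  show σ x ∈ O'
  have : Ov V (O'.comap (σ : K →+* AlgebraicClosure K)) := by
    apply ValuationSubring.ext
    intro a
    rw [ValuationSubring.mem_comap, ValuationSubring.mem_comap, ← hO'.mem]
    simp
  exact hx _ this

variable (F) in
/-- value groups: `z ^ (n!)` is an element of `F` times a unit -/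
theorem exists_pow_eq (O : ValuationSubring K) {z : K}
    (hz : z ≠ 0) : ∃ a : F, a ≠ 0 ∧
      O.valuation (z ^ (Module.finrank F K).factorial) = O.valuation (algebraMap F K a) := by
  set Q := minpoly F z with hQ
  have hzi : IsIntegral F z := Algebra.IsIntegral.isIntegral z
  have hQ0 : Q ≠ 0 := minpoly.ne_zero hzi
  have hdeg : Q.natDegree ≤ Module.finrank F K := minpoly.natDegree_le z
  suffices h : ∃ k : ℕ, 0 < k ∧ k ≤ Module.finrank F K ∧ ∃ a : F, a ≠ 0 ∧
      O.valuation (z ^ k) = O.valuation (algebraMap F K a) by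
    obtain ⟨k, hk0, hk, a, ha, h⟩ := h
    obtain ⟨l, hl⟩ := Nat.dvd_factorial hk0 hk
    refine ⟨a ^ l, pow_ne_zero _ ha, ?_⟩
    rw [hl, pow_mul, map_pow, h, map_pow, map_pow]
  by_contra hcon
  push Not at hcon
  have hinj : ∀ i ∈ Q.support, ∀ j ∈ Q.support, i < j →
      O.valuation (algebraMap F K (Q.coeff i) * z ^ i) ≠
        O.valuation (algebraMap F K (Q.coeff j) * z ^ j) := by
    intro i hi j hj hij heq
    have hi0 : Q.coeff i ≠ 0 := by simpa using hi
    have hj0 : Q.coeff j ≠ 0 := by simpa using hj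
    have hjn : j ≤ Q.natDegree := le_natDegree_of_ne_zero hj0
    refine hcon (j - i) (by omega) (by omega) (Q.coeff i / Q.coeff j)
      (div_ne_zero hi0 hj0) ?_
    have h1 : z ^ j = z ^ (j - i) * z ^ i := by
      rw [← pow_add]
      congr 1
      omega
    rw [h1] at heq
    simp only [map_mul] at heq
    have h2 : O.valuation (z ^ i) ≠ 0 := by simpa using fun h => absurd h hz
    have h3 : O.valuation (algebraMap F K (Q.coeff j)) ≠ 0 := by simpa using hj0
    rw [← mul_assoc] at heq
    have h4 := mul_right_cancel₀ h2 heq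
    rw [map_div₀ (algebraMap F K), map_div₀ O.valuation, h4]
    rw [mul_comm, mul_div_assoc, div_self h3, mul_one]
  obtain ⟨i, hi, hmax⟩ := Finset.exists_max_image Q.support
    (fun i => O.valuation (algebraMap F K (Q.coeff i) * z ^ i))
    (Polynomial.support_nonempty.2 hQ0)
  have hsum : ∑ j ∈ Q.support, algebraMap F K (Q.coeff j) * z ^ j = 0 := by
    have := minpoly.aeval F z
    rw [← hQ, aeval_def, eval₂_eq_sum, sum_def] at this
    exact this
  have hv := O.valuation.map_sum_eq_of_lt (s := Q.support)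
    (f := fun j => algebraMap F K (Q.coeff j) * z ^ j) (j := i) hi (by
      intro j hj
      rw [Finset.mem_sdiff, Finset.mem_singleton] at hj
      refine lt_of_le_of_ne (hmax j hj.1) ?_
      rcases lt_or_gt_of_ne hj.2 with h | h
      · exact hinj j hj.1 i hi h
      · exact (hinj i hi j hj.1 h).symm)
  rw [hsum, map_zero] at hv
  have hi0 : Q.coeff i ≠ 0 := by simpa using hi
  have : algebraMap F K (Q.coeff i) * z ^ i ≠ 0 :=
    mul_ne_zero (by simpa using hi0) (pow_ne_zero _ hz)
  exact this ((map_eq_zero _).1 hv.symm)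

end fin

end P025H587
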